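import Vale.Agent.P004G.H503.Fin
import Vale.Agent.P004G.H575.Ent

/-!
# P004G: the coefficient system of `y² = x³ + a x + b` and the proof of `TailMom`
-/

open Real MeasureTheory Set Filter
open scoped ENNReal Topology

namespace P004G

open ML
open P004 (IsFund Fam)

theorem two_dvd_bdE (a b : ℤ) : 2 ∣ bdE a b := ⟨_, rfl⟩

theorem bdE_ne {a b : ℤ} (hd : 4 * a ^ 3 + 27 * b ^ 2 ≠ 0) : bdE a b ≠ 0 := by
  unfold bdE
  have := Int.natAbs_ne_zero.2 hd
  positivity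

theorem ld_of {a b : ℤ} (hd : 4 * a ^ 3 + 27 * b ^ 2 ≠ 0) (hG : StMLG) (hM : Modl a b) (D : ℤ)
    (hD : Fund1 D) : LD (LA (a * D ^ 2) (b * D ^ 3)) :=
  (hG a b hd D hD).1 (hM.hasse D hD)

theorem ld_one {a b : ℤ} (hd : 4 * a ^ 3 + 27 * b ^ 2 ≠ 0) (hG : StMLG) (hM : Modl a b) :
    LD (LA a b) := by
  have h := ld_of hd hG hM 1 (Or.inl rfl)
  simpa using h

/-- the coefficient system of `y² = x³ + a x + b` -/
@[reducible] noncomputable def crv {a b : ℤ} (hd : 4 * a ^ 3 + 27 * b ^ 2 ≠ 0) (hG : StMLG)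
    (hB : StLbound) (hM : Modl a b) : Crv where
  bd := bdE a b
  bd_ne := bdE_ne hd
  two_dvd := two_dvd_bdE a b
  c n := if n.Coprime (bdE a b) then LA a b n else 0
  c_one := by
    rw [if_pos (Nat.coprime_one_left _)]
    exact (ld_one hd hG hM).one
  c_bad n hn := if_neg hn
  c_mul m n hmn := by
    by_cases h1 : m.Coprime (bdE a b)
    · by_cases h2 : n.Coprime (bdE a b)
      · rw [if_pos h1, if_pos h2, if_pos (Nat.Coprime.mul_left h1 h2),
          (ld_one hd hG hM).mul m n hmn]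
      · rw [if_neg h2, if_neg (fun h => h2 ((Nat.coprime_mul_iff_left.1 h).2)), mul_zero]
    · rw [if_neg h1, if_neg (fun h => h1 ((Nat.coprime_mul_iff_left.1 h).1)), zero_mul]
  c_hecke p k hp hb := by
    have h : ∀ j : ℕ, (p ^ j).Coprime (bdE a b) := fun j =>
      ((Nat.Prime.coprime_iff_not_dvd hp).2 hb).pow_left j
    rw [if_pos (h _), if_pos (h _), if_pos (h _), if_pos (by simpa using h 1)]
    exact (hG a b hd 1 (Or.inl rfl)).2.1 p hp hb k
  c_bound n := by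
    split_ifs
    · exact hB _ (ld_one hd hG hM) n
    · have h1 : (0 : ℝ) ≤ P004.dv n := by unfold P004.dv; positivity
      simp only [Int.cast_zero, abs_zero]
      positivity

theorem isLT_iff {a b D : ℤ} {L : ℂ → ℂ} (hLD : LD (LA (a * D ^ 2) (b * D ^ 3))) :
    IsLT a b D L ↔ IsL (LA (a * D ^ 2) (b * D ^ 3)) L := by
  have e : ∀ s : ℂ, LSeries.term (fun n => ((Ec (a * D ^ 2) (b * D ^ 3)).LFunction n : ℂ)) s =
      fun n : ℕ => (LA (a * D ^ 2) (b * D ^ 3) n : ℂ) / (n : ℂ) ^ s := by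
    intro s
    funext n
    rw [LSeries.term_def]
    split_ifs with hn
    · rw [hn, hLD.zero]; simp
    · rfl
  unfold IsLT IsL LSeriesHasSum
  simp only [e]
  refine and_congr_right fun _ => forall_congr' fun s => forall_congr' fun hs => ?_
  constructor
  · intro h; exact h.tsum_eq.symm
  · intro h
    rw [h]
    exact (Rk.summable_dirC hLD hs).hasSum

theorem feq_of {a b : ℤ} {N κ : ℝ} (hN : 0 < N) (hκ : κ = 1 ∨ κ = -1) (h : FEt a b N κ) :
    FEq (LA a b) (N / 4) κ := by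
  refine ⟨by positivity, hκ, fun u hu => ?_⟩
  have h1 := h (1 / (2 * (N / 4) * u)) (by positivity)
  have e1 : 1 / (N * (1 / (2 * (N / 4) * u))) = u / 2 := by
    field_simp
    ring
  rw [e1] at h1
  unfold TH
  have e2 : ∀ n : ℕ, (LA a b n : ℝ) * Real.exp (-2 * π * n * (u / 2)) =
      (LA a b n : ℝ) * Real.exp (-π * n * u) := by
    intro n; congr 2; ring
  have e3 : ∀ n : ℕ, (LA a b n : ℝ) * Real.exp (-2 * π * n * (1 / (2 * (N / 4) * u))) =
      (LA a b n : ℝ) * Real.exp (-π * n * (1 / (N / 4 * u))) := by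
    intro n; congr 2; field_simp
  simp only [e2, e3] at h1
  rw [h1]
  field_simp
  ring

theorem tf_of {a b : ℤ} (hd : 4 * a ^ 3 + 27 * b ^ 2 ≠ 0) (hG : StMLG)
    (hB : StLbound) (hM : Modl a b) : @StTF (crv hd hG hB hM) := by
  let I : Crv := crv hd hG hB hM
  obtain ⟨C, hC, hfe⟩ := hM.fe
  have hC0 : 0 < C := by linarith
  have hk : 2 * C ≤ (⌈2 * C⌉₊ : ℝ) := Nat.le_ceil _
  refine ⟨⌈2 * C⌉₊, Nat.one_le_ceil_iff.2 (by positivity), fun m hm => ?_⟩
  obtain ⟨N, κ, hN, hκ, h1, h2, h3⟩ := hfe (Dm m) (fund1_Dm hm)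
  obtain ⟨d1, d2⟩ := abs_Dm m
  have d3 : (m : ℝ) ^ 2 ≤ (Dm m : ℝ) ^ 2 := by
    rw [← sq_abs (m : ℝ), ← sq_abs (Dm m : ℝ)]
    exact pow_le_pow_left₀ (abs_nonneg _) d1 2
  have d4 : (Dm m : ℝ) ^ 2 ≤ 16 * (m : ℝ) ^ 2 := by
    rw [← sq_abs (m : ℝ), ← sq_abs (Dm m : ℝ)]
    have := pow_le_pow_left₀ (abs_nonneg _) d2 2
    rw [mul_pow] at this
    linarith
  have hk2 : 4 * C ^ 2 ≤ (⌈2 * C⌉₊ : ℝ) ^ 2 := by
    have := pow_le_pow_left₀ (by positivity) hk 2
    rw [mul_pow] at this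
    linarith
  have hkp : 0 < (⌈2 * C⌉₊ : ℝ) := by linarith
  have hm2 : 0 ≤ (m : ℝ) ^ 2 := sq_nonneg _
  refine ⟨LA (a * Dm m ^ 2) (b * Dm m ^ 3), N / 4, κ, ld_of hd hG hM _ (fund1_Dm hm),
    feq_of hN hκ h3, ?_, ?_, ?_⟩
  · intro n hn
    have hn' : n.Coprime (bdE a b) := hn
    have hodd : Odd n := by
      rw [← Nat.coprime_two_right]
      exact hn'.coprime_dvd_right (two_dvd_bdE a b)
    rw [(hG a b hd (Dm m) (fund1_Dm hm)).2.2 n hn', jacobi_Dm m hodd]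
    congr 1
    change _ = (if n.Coprime (bdE a b) then LA a b n else 0)
    rw [if_pos hn']
  · apply Real.le_sqrt_of_sq_le
    rw [div_pow, sq_abs, div_le_iff₀ (by positivity)]
    rw [div_le_iff₀ hC0] at h1
    have : (m : ℝ) ^ 2 ≤ N * C := by linarith
    have h5 : 4 * C * C ≤ (⌈2 * C⌉₊ : ℝ) ^ 2 := by linarith
    have h6 : N / 4 * (4 * C) ≤ N / 4 * (⌈2 * C⌉₊ : ℝ) ^ 2 := by
      refine mul_le_mul_of_nonneg_left ?_ (by positivity)
      nlinarith
    linarith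
  · rw [Real.sqrt_le_left (by positivity), mul_pow, sq_abs]
    have h5 : N ≤ C * (16 * (m : ℝ) ^ 2) := h2.trans (mul_le_mul_of_nonneg_left d4 hC0.le)
    have h6 : 4 * C ≤ (⌈2 * C⌉₊ : ℝ) ^ 2 := by nlinarith
    nlinarith [mul_le_mul_of_nonneg_right h6 hm2]

theorem tailMom_of (hMain : ∀ [Crv], StTF → StMom) (hV : ∀ [Crv], StVan1) (hG : StMLG)
    (hB : StLbound) (hEnt : StLent) (hR : StLrank) {a b : ℤ}
    (hd : 4 * a ^ 3 + 27 * b ^ 2 ≠ 0) (hM : Modl a b) : TailMom a b := by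
  classical
  let I : Crv := crv hd hG hB hM
  -- the data of one twist
  have hdata : ∀ D, Fund1 D → ∃ (q κ : ℝ) (L : ℂ → ℂ), LD (LA (a * D ^ 2) (b * D ^ 3)) ∧
      FEq (LA (a * D ^ 2) (b * D ^ 3)) q κ ∧ IsL (LA (a * D ^ 2) (b * D ^ 3)) L ∧
      IsLT a b D L ∧ (∀ L', IsLT a b D L' → L' = L) ∧ aRk a b D = analyticOrderNatAt L 1 := by
    intro D hD
    obtain ⟨C, hC, hfe⟩ := hM.fe
    obtain ⟨N, κ, hN, hκ, h1, h2, h3⟩ := hfe D hD
    have hLD := ld_of hd hG hM D hD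
    have hFE := feq_of hN hκ h3
    obtain ⟨L, hL, hU⟩ := hEnt _ _ _ hLD hFE
    have hLT : IsLT a b D L := (isLT_iff hLD).2 hL
    have hUT : ∀ L', IsLT a b D L' → L' = L := fun L' h' => hU L' ((isLT_iff hLD).1 h')
    refine ⟨N / 4, κ, L, hLD, hFE, hL, hLT, hUT, ?_⟩
    unfold aRk
    have hex : ∃ L, IsLT a b D L := ⟨L, hLT⟩
    rw [dif_pos hex, hUT _ hex.choose_spec]
  have hTF : StTF := tf_of hd hG hB hM
  have hmom := hMain hTF
  obtain ⟨CR, hCR, hRk⟩ := hR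
  have hvan : ∀ m : ℤ, Squarefree m → m ≠ 1 → Van m (aRk a b (Dm m)) := by
    intro m hm _
    obtain ⟨q, κ, L, hLD, hFE, hL, -, -, hrk⟩ := hdata (Dm m) (fund1_Dm hm)
    rw [hrk]
    refine hV m _ q κ L hLD hFE hL fun n hn => ?_
    have hn' : n.Coprime (bdE a b) := hn
    have hodd : Odd n := by
      rw [← Nat.coprime_two_right]
      exact hn'.coprime_dvd_right (two_dvd_bdE a b)
    rw [(hG a b hd (Dm m) (fund1_Dm hm)).2.2 n hn', jacobi_Dm m hodd]
    congr 1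
    change _ = (if n.Coprime (bdE a b) then LA a b n else 0)
    rw [if_pos hn']
  have hlog : ∃ C : ℝ, ∀ m : ℤ, Squarefree m → m ≠ 1 →
      (aRk a b (Dm m) : ℝ) ≤ C * Real.log (3 * |(m : ℝ)|) := by
    obtain ⟨C, hC, hfe⟩ := hM.fe
    refine ⟨CR * (3 + Real.log (4 * C)), fun m hm _ => ?_⟩
    obtain ⟨N, κ, hN, hκ, h1, h2, h3⟩ := hfe (Dm m) (fund1_Dm hm)
    have hLD := ld_of hd hG hM _ (fund1_Dm hm)
    have hFE := feq_of hN hκ h3
    obtain ⟨-, -, L, -, -, hL, -, -, hrk⟩ := hdata (Dm m) (fund1_Dm hm)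
    have h4 := (hRk _ _ _ L hLD hFE hL).2
    rw [← hrk] at h4
    have hm1 : (1 : ℝ) ≤ |(m : ℝ)| := by
      have : 1 ≤ |m| := Int.one_le_abs hm.ne_zero
      exact_mod_cast this
    have d4 : (Dm m : ℝ) ^ 2 ≤ 16 * |(m : ℝ)| ^ 2 := by
      rw [← sq_abs (Dm m : ℝ)]
      have := pow_le_pow_left₀ (abs_nonneg _) (abs_Dm m).2 2
      rw [mul_pow] at this
      linarith
    have h5 : 3 + N / 4 ≤ (4 * C) * (3 * |(m : ℝ)|) ^ 2 := by
      have h6 : N ≤ C * (16 * |(m : ℝ)| ^ 2) :=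
        h2.trans (mul_le_mul_of_nonneg_left d4 (by linarith))
      have h7 : 1 ≤ |(m : ℝ)| ^ 2 := one_le_pow₀ hm1
      have h8 : |(m : ℝ)| ^ 2 ≤ C * |(m : ℝ)| ^ 2 := by nlinarith
      nlinarith
    have hL3 : 1 ≤ Real.log (3 * |(m : ℝ)|) := by
      rw [Real.le_log_iff_exp_le (by positivity)]
      linarith [Real.exp_one_lt_d9]
    have h9 : Real.log (3 + N / 4) ≤ Real.log (4 * C) + 2 * Real.log (3 * |(m : ℝ)|) := by
      refine (Real.log_le_log (by positivity) h5).trans ?_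
      rw [Real.log_mul (by positivity) (by positivity), Real.log_pow]
      push_cast
      linarith
    have h10 : 0 ≤ Real.log (4 * C) := Real.log_nonneg (by linarith)
    have h11 : Real.log (4 * C) ≤ Real.log (4 * C) * Real.log (3 * |(m : ℝ)|) := by nlinarith
    calc (aRk a b (Dm m) : ℝ) ≤ CR * Real.log (3 + N / 4) := h4
      _ ≤ CR * ((3 + Real.log (4 * C)) * Real.log (3 * |(m : ℝ)|)) := by
          refine mul_le_mul_of_nonneg_left ?_ (by linarith)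
          nlinarith
      _ = _ := by ring
  obtain ⟨⟨c, hc, htail⟩, hmoments⟩ := hmom (fun m => aRk a b (Dm m)) hvan hlog
  obtain ⟨c₀, hc₀, hcount⟩ := P004.pfCount
  refine ⟨?_, ⟨c, hc, fun B => ?_⟩, fun k => ?_⟩
  · intro D hD
    obtain ⟨q, κ, L, hLD, hFE, hL, hLT, hU, hrk⟩ := hdata D (Or.inr hD)
    refine ⟨L, hLT, hU, ?_⟩
    rw [hrk, Nat.cast_analyticOrderNatAt]
    exact (hRk _ _ _ L hLD hFE hL).1
  · obtain ⟨C, hC, h⟩ := htail B
    refine ⟨C / c₀, by positivity, fun X hX z hz => ?_⟩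
    have h1 := h X hX z hz
    have h2 := fam_card_le X (fun D => z ≤ (aRk a b D : ℝ))
    have h3 : (((Fam X).filter (fun D => z ≤ (aRk a b D : ℝ))).card : ℝ) ≤
        (((sqZ X).filter (fun m => m ≠ 1 ∧ z ≤ (aRk a b (Dm m) : ℝ))).card : ℝ) := by
      exact_mod_cast h2
    have h4 := hcount X hX
    have hX0 : (3 : ℝ) ≤ X := by exact_mod_cast hX
    have hlogX : 0 ≤ Real.log X := Real.log_nonneg (by linarith)
    have h5 : 0 ≤ Real.exp (-c * √z) + Real.log X ^ (-(B : ℝ)) := by positivity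
    refine h3.trans (h1.trans ?_)
    refine mul_le_mul_of_nonneg_right ?_ h5
    rw [div_mul_eq_mul_div, le_div_iff₀ hc₀]
    nlinarith
  · obtain ⟨C, hC, h⟩ := hmoments k
    refine ⟨C / c₀, by positivity, fun X hX => ?_⟩
    have h1 := h X hX
    have h2 := fam_sum_le X (fun D => (aRk a b D : ℝ) ^ k) (fun D => by positivity)
    have h4 := hcount X hX
    refine h2.trans ?_
    refine le_trans (le_of_eq ?_) (h1.trans ?_)
    · congr!
    · rw [div_mul_eq_mul_div, le_div_iff₀ hc₀]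
      nlinarith

end P004G
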