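import Vale.Agent.P004G.H503.AsmB

/-!
# P004G, assembly, part C: bounds for the inner and the outer part
-/

open Real MeasureTheory Set
open scoped ENNReal

namespace P004G
namespace Asm

open P004.Asm (ηf_nonneg ηf_le_one ηf_zero ηf_one ηf_cont wj_pos Gp_abs_le fold_le)

variable [Crv]

/-- Cauchy-Schwarz -/
lemma abs_int_le {m : ℤ} (hfin : Jz m ≠ ⊤) {α β : ℝ} (hα : 0 < α) (hαβ : α ≤ β) :
    ∫ u in Ioc α β, |theta m u| ≤ √((Jz m).toReal * Real.log (β / α)) := by
  have hsub : Icc α β ⊆ Ioi (0 : ℝ) := fun u hu => lt_of_lt_of_le hα hu.1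
  have hth : ContinuousOn (theta m) (Icc α β) := (Th.continuousOn_theta m).mono hsub
  have i1 : IntegrableOn (fun u => theta m u ^ 2 * u) (Ioc α β) :=
    ((hth.pow 2).mul continuousOn_id).integrableOn_compact isCompact_Icc |>.mono_set
      Ioc_subset_Icc_self
  have i2 : IntegrableOn (fun u => |theta m u|) (Ioc α β) :=
    (hth.abs.integrableOn_compact isCompact_Icc).mono_set Ioc_subset_Icc_self
  have i3 : IntegrableOn (fun u : ℝ => 1 / u) (Ioc α β) := by
    have : ContinuousOn (fun u : ℝ => 1 / u) (Icc α β) :=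
      continuousOn_const.div continuousOn_id fun x hx => ne_of_gt (hsub hx)
    exact (this.integrableOn_compact isCompact_Icc).mono_set Ioc_subset_Icc_self
  have h3 : ∫ u in Ioc α β, 1 / u = Real.log (β / α) := by
    rw [← intervalIntegral.integral_of_le hαβ, integral_one_div_of_pos hα (hα.trans_le hαβ)]
  set J2 := ∫ u in Ioc α β, theta m u ^ 2 * u with hJ2
  set X := ∫ u in Ioc α β, |theta m u| with hX
  have hJ : J2 ≤ (Jz m).toReal := by
    rw [hJ2, integral_eq_lintegral_of_nonneg_ae]
    · refine ENNReal.toReal_mono hfin ?_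
      unfold Jz
      exact lintegral_mono_set fun u hu => lt_trans hα hu.1
    · filter_upwards [ae_restrict_mem measurableSet_Ioc] with u hu
      have hu0 : (0 : ℝ) < u := lt_trans hα hu.1
      simp only [Pi.zero_apply]
      positivity
    · exact i1.aestronglyMeasurable
  have hX0 : 0 ≤ X := setIntegral_nonneg measurableSet_Ioc fun u _ => abs_nonneg _
  have hquad : ∀ l : ℝ, 0 ≤ J2 * (l * l) + (-2 * X) * l + Real.log (β / α) := by
    intro l
    have h4 : 0 ≤ ∫ u in Ioc α β, ((l * l) * (theta m u ^ 2 * u) +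
        (-2 * l) * |theta m u| + 1 / u) := by
      refine setIntegral_nonneg measurableSet_Ioc fun u hu => ?_
      have hu0 : (0 : ℝ) < u := lt_trans hα hu.1
      have h5 : (l * l) * (theta m u ^ 2 * u) + (-2 * l) * |theta m u| + 1 / u =
          (l * |theta m u| * u - 1) ^ 2 / u := by
        rw [← sq_abs (theta m u)]
        field_simp
        ring
      rw [h5]
      positivity
    have i12 : IntegrableOn (fun u => (l * l) * (theta m u ^ 2 * u) + (-2 * l) * |theta m u|)
      (Ioc α β) := (i1.const_mul _).add (i2.const_mul _)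
    rw [integral_add i12 i3, integral_add (i1.const_mul _) (i2.const_mul _), integral_const_mul,
      integral_const_mul, h3] at h4
    rw [← hJ2, ← hX] at h4
    linarith
  have hdis := discrim_le_zero hquad
  unfold discrim at hdis
  have hlog : 0 ≤ Real.log (β / α) := Real.log_nonneg (by rw [le_div_iff₀ hα]; linarith)
  apply Real.le_sqrt_of_sq_le
  have h6 : J2 * Real.log (β / α) ≤ (Jz m).toReal * Real.log (β / α) :=
    mul_le_mul_of_nonneg_right hJ hlog
  nlinarith

/-- the inner part; `T` bounds the centre and the shift -/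
lemma Tin_le {m : ℤ} (hfin : Jz m ≠ ⊤) {κ : ℝ} (hκ : κ = 1 ∨ κ = -1) {Y : ℕ} (hY : 3 ≤ Y)
    {α c s T : ℝ} (hα0 : 0 < α) (hα : Real.log (α * Y) = c - s) (hc : |c| ≤ T) (hs0 : 0 ≤ s)
    (hs : s ≤ T) {z : ℝ} (hz : 0 ≤ z) (a b J : ℕ) (hJ : c - s < wj Y J) :
    |Tin Y J m α c s z κ a b| ≤ 2 * ((z * (2 * wj Y J + 3 * T)) ^ a *
      Real.exp (z * (2 * wj Y J + 3 * T))) * √((Jz m).toReal * (2 * wj Y J + 3 * T)) := by
  have h0 : (0 : ℝ) < Y := by exact_mod_cast (by omega : 0 < Y)
  have hw := wj_pos hY J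
  obtain ⟨hc1, hc2⟩ := abs_le.1 hc
  set w := wj Y J with hwdef
  have hT0 : 0 ≤ T := hs0.trans hs
  set Bd := 2 * ((z * (2 * w + 3 * T)) ^ a * Real.exp (z * (2 * w + 3 * T))) with hBd
  have hBd0 : 0 ≤ Bd := by positivity
  set β := Real.exp (2 * w) / Y with hβ
  have hαY : α * Y = Real.exp (c - s) := by
    rw [← hα, Real.exp_log (by positivity)]
  have hαβ : α ≤ β := by
    rw [hβ, le_div_iff₀ h0, hαY]
    apply Real.exp_le_exp.2
    linarith
  have hlog : Real.log (β / α) ≤ 2 * w + 3 * T := by
    have e : β / α = Real.exp (2 * w) / (α * Y) := by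
      rw [hβ]; field_simp
    rw [e, Real.log_div (Real.exp_pos _).ne' (by positivity), Real.log_exp, hα]
    linarith
  unfold Tin
  have h1 : ∀ u ∈ Ioi α, |theta m u * (Gp z a b (Real.log (u * Y) + s) +
      κ * Gp z a b (2 * c - (Real.log (u * Y) + s))) * (1 - ηf (Real.log (u * Y) / w))| ≤
      (Ioc α β).indicator (fun u => Bd * |theta m u|) u := by
    intro u hu
    have hu0 : 0 < u := hα0.trans hu
    by_cases hu2 : u ≤ β
    · rw [Set.indicator_of_mem (show u ∈ Ioc α β from ⟨hu, hu2⟩)]
      have hx1 : c - s < Real.log (u * Y) := by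
        rw [← hα]
        exact Real.log_lt_log (by positivity) (mul_lt_mul_of_pos_right hu h0)
      have hx2 : Real.log (u * Y) ≤ 2 * w := by
        rw [Real.log_le_iff_le_exp (by positivity)]
        calc u * Y ≤ β * Y := by gcongr
          _ = _ := by rw [hβ]; field_simp
      have h2 := fold_le hκ hz a b (x := Real.log (u * Y) + s)
        (y := 2 * c - (Real.log (u * Y) + s))
        (t := 2 * w + 3 * T) (by rw [abs_le]; constructor <;> linarith)
        (by rw [abs_le]; constructor <;> linarith)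
      have h3 := ηf_nonneg (Real.log (u * Y) / w)
      have h4 := ηf_le_one (Real.log (u * Y) / w)
      rw [abs_mul, abs_mul, abs_of_nonneg (by linarith : 0 ≤ 1 - ηf (Real.log (u * Y) / w))]
      calc |theta m u| * |Gp z a b (Real.log (u * Y) + s) +
            κ * Gp z a b (2 * c - (Real.log (u * Y) + s))| * (1 - ηf (Real.log (u * Y) / w)) ≤
            |theta m u| * Bd * 1 := by
            refine mul_le_mul (mul_le_mul_of_nonneg_left h2 (abs_nonneg _)) (by linarith)
              (by linarith) (by positivity)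
        _ = Bd * |theta m u| := by ring
    · push Not at hu2
      have hx2 : 2 * w ≤ Real.log (u * Y) := by
        rw [Real.le_log_iff_exp_le (by positivity)]
        calc Real.exp (2 * w) = β * Y := by rw [hβ]; field_simp
          _ ≤ u * Y := by gcongr
      have h5 : ηf (Real.log (u * Y) / w) = 1 := by
        apply ηf_one
        rw [le_div_iff₀ hw]; exact hx2
      rw [h5, sub_self, mul_zero, abs_zero]
      exact Set.indicator_nonneg (fun u _ => by positivity) u
  have hsub : Icc α β ⊆ Ioi (0 : ℝ) := fun u hu => lt_of_lt_of_le hα0 hu.1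
  have hth : ContinuousOn (theta m) (Icc α β) := (Th.continuousOn_theta m).mono hsub
  have i2 : IntegrableOn (fun u => |theta m u|) (Ioc α β) :=
    (hth.abs.integrableOn_compact isCompact_Icc).mono_set Ioc_subset_Icc_self
  have i3 : IntegrableOn ((Ioc α β).indicator (fun u => Bd * |theta m u|)) (Ioi α) :=
    ((integrable_indicator_iff measurableSet_Ioc).2 (i2.const_mul Bd)).integrableOn
  have h6 : |∫ u in Ioi α, theta m u * (Gp z a b (Real.log (u * Y) + s) +
      κ * Gp z a b (2 * c - (Real.log (u * Y) + s))) * (1 - ηf (Real.log (u * Y) / w))| ≤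
      ∫ u in Ioi α, (Ioc α β).indicator (fun u => Bd * |theta m u|) u := by
    rw [← Real.norm_eq_abs]
    refine norm_integral_le_of_norm_le i3 ?_
    filter_upwards [ae_restrict_mem measurableSet_Ioi] with u hu
    rw [Real.norm_eq_abs]
    exact h1 u hu
  refine h6.trans ?_
  rw [setIntegral_indicator measurableSet_Ioc]
  have e2 : Ioi α ∩ Ioc α β = Ioc α β := by
    ext u; simp only [mem_inter_iff, mem_Ioi, mem_Ioc]; tauto
  rw [e2, integral_const_mul]
  refine mul_le_mul_of_nonneg_left ?_ hBd0
  refine (abs_int_le hfin hα0 hαβ).trans ?_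
  apply Real.sqrt_le_sqrt
  exact mul_le_mul_of_nonneg_left hlog ENNReal.toReal_nonneg

lemma Tout_le {m : ℤ} {κ : ℝ} (hκ : κ = 1 ∨ κ = -1) {Y : ℕ} (hY : 3 ≤ Y)
    {α c s T : ℝ} (hα0 : 0 < α) (hc : |c| ≤ T) (hs0 : 0 ≤ s) (hs : s ≤ T) {z : ℝ} (hz : 0 ≤ z)
    (hz2 : z ≤ 1 / 2) (a b : ℕ) :
    |Tout Y m α c s z κ a b| ≤ 2 * Th.C0 * (a.factorial : ℝ) * Real.exp (3 * T) *
      (Y * Real.exp (-√(Y : ℝ))) := by
  have h0 : (0 : ℝ) < Y := by exact_mod_cast (by omega : 0 < Y)
  have hY3 : (3 : ℝ) ≤ Y := by exact_mod_cast hY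
  have hL : 0 < Real.log Y := Real.log_pos (by linarith)
  have hC0 := Th.C0_nonneg
  obtain ⟨hc1, hc2⟩ := abs_le.1 hc
  have hT0 : 0 ≤ T := hs0.trans hs
  set Bd := 2 * Th.C0 * (a.factorial : ℝ) * Real.exp (3 * T) * (Y * Real.exp (-√(Y : ℝ))) with hBd
  have hBd0 : 0 ≤ Bd := by positivity
  unfold Tout
  have h1 : ∀ u ∈ Ioi α, |theta m u * (Gp z a b (Real.log (u * Y) + s) +
      κ * Gp z a b (2 * c - (Real.log (u * Y) + s))) * (ηf (Real.log (u * Y) / wj Y 0) *
        ηf (Real.log (u * Y) / (3 / 2 * Real.log Y)))| ≤ Bd * Real.exp (-u) := by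
    intro u hu
    have hu0 : 0 < u := hα0.trans hu
    by_cases hu2 : Real.log (u * Y) ≤ 3 / 2 * Real.log Y
    · have h5 : ηf (Real.log (u * Y) / (3 / 2 * Real.log Y)) = 0 := by
        apply ηf_zero
        rw [div_le_one (by positivity)]; exact hu2
      rw [h5, mul_zero, mul_zero, abs_zero]
      positivity
    · push Not at hu2
      set x := Real.log (u * Y) with hx
      have hx0 : 0 < x := by
        have : 0 < 3 / 2 * Real.log Y := by positivity
        linarith
      have hexp : Real.exp x = u * Y := Real.exp_log (by positivity)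
      have hu3 : √(Y : ℝ) ≤ u := by
        have h7 : (1 / 2) * Real.log Y < Real.log u := by
          rw [hx, Real.log_mul hu0.ne' h0.ne'] at hu2
          linarith
        have h8 : Real.log (√(Y : ℝ)) < Real.log u := by
          rw [Real.log_sqrt h0.le]; linarith
        exact ((Real.log_lt_log_iff (by positivity) hu0).1 h8).le
      have hY1 : 1 ≤ √(Y : ℝ) := by rw [Real.one_le_sqrt]; linarith
      have hu1 : 1 ≤ u := hY1.trans hu3
      have h2 := fold_le hκ hz a b (x := x + s) (y := 2 * c - (x + s))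
        (t := x + 3 * T) (by rw [abs_le]; constructor <;> linarith)
        (by rw [abs_le]; constructor <;> linarith)
      have ht : 0 ≤ z * (x + 3 * T) := by positivity
      have h3 : (z * (x + 3 * T)) ^ a ≤ (a.factorial : ℝ) * Real.exp (z * (x + 3 * T)) := by
        have := Real.pow_div_factorial_le_exp (z * (x + 3 * T)) ht a
        rw [div_le_iff₀ (by positivity)] at this
        linarith
      have h4 : Real.exp (z * (x + 3 * T)) * Real.exp (z * (x + 3 * T)) ≤
          Real.exp (3 * T) * (u * Y) := by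
        rw [← hexp, ← Real.exp_add, ← Real.exp_add, Real.exp_le_exp]
        nlinarith
      have h6 : |Gp z a b (x + s) + κ * Gp z a b (2 * c - (x + s))| ≤
          2 * (a.factorial : ℝ) * (Real.exp (3 * T) * (u * Y)) := by
        refine h2.trans ?_
        calc 2 * ((z * (x + 3 * T)) ^ a * Real.exp (z * (x + 3 * T))) ≤
            2 * (((a.factorial : ℝ) * Real.exp (z * (x + 3 * T))) *
              Real.exp (z * (x + 3 * T))) := by
              gcongr
          _ = 2 * (a.factorial : ℝ) * (Real.exp (z * (x + 3 * T)) *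
              Real.exp (z * (x + 3 * T))) := by ring
          _ ≤ _ := by gcongr
      have h7 := Th.theta_le m hu1
      have e1 := ηf_nonneg (x / wj Y 0)
      have e2 := ηf_le_one (x / wj Y 0)
      have e3 := ηf_nonneg (x / (3 / 2 * Real.log Y))
      have e4 := ηf_le_one (x / (3 / 2 * Real.log Y))
      have e5 : ηf (x / wj Y 0) * ηf (x / (3 / 2 * Real.log Y)) ≤ 1 := by
        calc _ ≤ (1 : ℝ) * 1 := mul_le_mul e2 e4 e3 zero_le_one
          _ = 1 := one_mul 1
      rw [abs_mul, abs_mul, abs_of_nonneg (mul_nonneg e1 e3)]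
      have h8 : Real.exp (-Real.pi * u) * u ≤ Real.exp (-√(Y : ℝ)) * Real.exp (-u) := by
        have h9 : u ≤ Real.exp u := by linarith [Real.add_one_le_exp u]
        calc Real.exp (-Real.pi * u) * u ≤ Real.exp (-Real.pi * u) * Real.exp u := by gcongr
          _ = Real.exp (-Real.pi * u + u) := by rw [Real.exp_add]
          _ ≤ Real.exp (-√(Y : ℝ) + -u) := by
            rw [Real.exp_le_exp]
            nlinarith [Real.pi_gt_three]
          _ = _ := by rw [Real.exp_add]
      calc |theta m u| * |Gp z a b (x + s) + κ * Gp z a b (2 * c - (x + s))| *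
            (ηf (x / wj Y 0) * ηf (x / (3 / 2 * Real.log Y))) ≤
            (Th.C0 * Real.exp (-Real.pi * u)) * (2 * (a.factorial : ℝ) *
              (Real.exp (3 * T) * (u * Y))) * 1 := by
            gcongr
        _ = 2 * Th.C0 * (a.factorial : ℝ) * Real.exp (3 * T) * Y *
            (Real.exp (-Real.pi * u) * u) := by ring
        _ ≤ 2 * Th.C0 * (a.factorial : ℝ) * Real.exp (3 * T) * Y *
            (Real.exp (-√(Y : ℝ)) * Real.exp (-u)) := by gcongr
        _ = Bd * Real.exp (-u) := by rw [hBd]; ring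
  have i3 : IntegrableOn (fun u => Bd * Real.exp (-u)) (Ioi α) :=
    ((integrableOn_exp_neg_Ioi α)).const_mul Bd
  rw [← Real.norm_eq_abs]
  refine (norm_integral_le_of_norm_le i3 ?_).trans ?_
  · filter_upwards [ae_restrict_mem measurableSet_Ioi] with u hu
    rw [Real.norm_eq_abs]
    exact h1 u hu
  · rw [integral_const_mul, integral_exp_neg_Ioi]
    refine mul_le_of_le_one_right hBd0 ?_
    rw [Real.exp_le_one_iff]
    linarith

end Asm
end P004G
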