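import Vale.Agent.P004G.Iface
import Vale.Agent.P004.K1

/-!
# P004G: basic facts about `theta m`
-/

open Complex Filter Set MeasureTheory Asymptotics
open scoped Topology ENNReal

namespace P004G
namespace Th

variable [Crv]

lemma abs_chi_le (m : ℤ) (n : ℕ) : |chi m n| ≤ 1 := P004.K1.abs_chi_le m n

lemma dv_le (n : ℕ) : dv n ≤ n := P004.K1.dv_le n

lemma ca_le (n : ℕ) : |(ca n : ℝ)| ≤ (n : ℝ) ^ (3 / 2 : ℝ) := by
  have hn : (0 : ℝ) ≤ n := Nat.cast_nonneg n
  calc |(ca n : ℝ)| ≤ dv n * √(n : ℝ) := pfCoef.bound n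
    _ ≤ n * √(n : ℝ) := by gcongr; exact dv_le n
    _ = (n : ℝ) ^ (3 / 2 : ℝ) := by
        rw [Real.sqrt_eq_rpow, show (3 / 2 : ℝ) = 1 + 1 / 2 by norm_num,
          Real.rpow_add_of_nonneg hn zero_le_one (by norm_num), Real.rpow_one]

lemma ca_le_sq (n : ℕ) : |(ca n : ℝ)| ≤ (n : ℝ) ^ 2 := by
  rcases Nat.eq_zero_or_pos n with rfl | hn
  · rw [pfCoef.zero]; simp
  · have hn1 : (1 : ℝ) ≤ n := by exact_mod_cast hn
    refine (ca_le n).trans ?_
    rw [← Real.rpow_natCast]
    exact Real.rpow_le_rpow_of_exponent_le hn1 (by norm_num)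

/-- the coefficient -/
noncomputable def cc (m : ℤ) (n : ℕ) : ℝ := (ca n : ℝ) * chi m n

lemma cc_le (m : ℤ) (n : ℕ) : |cc m n| ≤ |(ca n : ℝ)| := by
  unfold cc
  rw [abs_mul]
  exact mul_le_of_le_one_right (abs_nonneg _) (abs_chi_le m n)

lemma summable_exp {u : ℝ} (hu : 0 < u) :
    Summable (fun n : ℕ => |(ca n : ℝ)| * Real.exp (-Real.pi * n * u)) := by
  have h1 := Real.summable_pow_mul_exp_neg_nat_mul 2 (r := Real.pi * u) (by positivity)
  refine h1.of_nonneg_of_le (fun n => by positivity) (fun n => ?_)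
  have e1 : -Real.pi * n * u = -(Real.pi * u) * n := by ring
  rw [e1]
  exact mul_le_mul_of_nonneg_right (ca_le_sq n) (Real.exp_pos _).le

lemma summable_theta (m : ℤ) {u : ℝ} (hu : 0 < u) :
    Summable (fun n : ℕ => (ca n : ℝ) * chi m n * Real.exp (-Real.pi * n * u)) := by
  refine Summable.of_norm_bounded (summable_exp hu) fun n => ?_
  rw [norm_mul, Real.norm_eq_abs, Real.norm_of_nonneg (Real.exp_pos _).le]
  exact mul_le_mul_of_nonneg_right (cc_le m n) (Real.exp_pos _).le

lemma continuousOn_theta (m : ℤ) : ContinuousOn (theta m) (Ioi 0) := by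
  intro u hu
  have hu0 : (0 : ℝ) < u := hu
  apply ContinuousAt.continuousWithinAt
  have h1 : ContinuousOn (fun u : ℝ => ∑' n : ℕ, (ca n : ℝ) * chi m n *
      Real.exp (-Real.pi * n * u)) (Ioi (u / 2)) := by
    refine continuousOn_tsum (u := fun n : ℕ => |(ca n : ℝ)| * Real.exp (-Real.pi * n * (u / 2)))
      ?_ (summable_exp (by positivity)) ?_
    · intro n
      fun_prop
    · intro n x hx
      rw [norm_mul, Real.norm_eq_abs, Real.norm_of_nonneg (Real.exp_pos _).le]
      have hx' : u / 2 ≤ x := (le_of_lt hx)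
      have h2 : Real.exp (-Real.pi * n * x) ≤ Real.exp (-Real.pi * n * (u / 2)) := by
        apply Real.exp_le_exp.2
        have : (0 : ℝ) ≤ Real.pi * n := by positivity
        nlinarith
      exact mul_le_mul (cc_le m n) h2 (Real.exp_pos _).le (abs_nonneg _)
  have h2 : ContinuousOn (theta m) (Ioi (u / 2)) := by
    unfold theta
    exact continuousOn_const.mul h1
  exact h2.continuousAt (Ioi_mem_nhds (by linarith))

/-- the constant of the decay bound -/
noncomputable def C0 : ℝ := 4 * ∑' n : ℕ, |(ca n : ℝ)| * Real.exp (-Real.pi * (n - 1))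

lemma summable_C0 :
    Summable (fun n : ℕ => |(ca n : ℝ)| * Real.exp (-Real.pi * (n - 1))) := by
  have h1 := (summable_exp one_pos).mul_right (Real.exp Real.pi)
  refine h1.congr fun n => ?_
  rw [mul_assoc, ← Real.exp_add]
  congr 2
  ring

lemma C0_nonneg : 0 ≤ C0 := by
  unfold C0
  exact mul_nonneg (by norm_num) (tsum_nonneg fun n => by positivity)

lemma theta_le (m : ℤ) {u : ℝ} (hu : 1 ≤ u) :
    |theta m u| ≤ C0 * Real.exp (-Real.pi * u) := by
  have hu0 : 0 < u := by linarith
  unfold theta C0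
  rw [abs_mul, abs_of_pos (by norm_num : (0 : ℝ) < 4), mul_assoc]
  apply mul_le_mul_of_nonneg_left _ (by norm_num)
  rw [← tsum_mul_right]
  have h1 : ‖∑' n : ℕ, (ca n : ℝ) * chi m n * Real.exp (-Real.pi * n * u)‖ ≤
      ∑' n : ℕ, |(ca n : ℝ)| * Real.exp (-Real.pi * (n - 1)) * Real.exp (-Real.pi * u) := by
    refine tsum_of_norm_bounded (summable_C0.mul_right _).hasSum fun n => ?_
    rw [norm_mul, Real.norm_eq_abs, Real.norm_of_nonneg (Real.exp_pos _).le]
    rcases Nat.eq_zero_or_pos n with rfl | hn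
    · have : (ca 0 : ℝ) = 0 := by rw [pfCoef.zero]; simp
      rw [this]
      simp
    · rw [mul_assoc |(ca n : ℝ)|]
      refine mul_le_mul (cc_le m n) ?_ (Real.exp_pos _).le (abs_nonneg _)
      rw [← Real.exp_add]
      apply Real.exp_le_exp.2
      have hn1 : (1 : ℝ) ≤ n := by exact_mod_cast hn
      have := Real.pi_pos
      nlinarith [mul_nonneg (sub_nonneg.2 hn1) (sub_nonneg.2 hu)]
  exact h1

/-- a bound on every half line -/
lemma theta_bdd (m : ℤ) {α : ℝ} (hα : 0 < α) : ∃ B : ℝ, 0 ≤ B ∧ ∀ u, α ≤ u →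
    |theta m u| ≤ B * Real.exp (-Real.pi * u) := by
  have hcont : ContinuousOn (fun u => |theta m u| * Real.exp (Real.pi * u)) (Icc α (α + 1)) := by
    refine ContinuousOn.mul ?_ (by fun_prop)
    exact ((continuousOn_theta m).mono fun u hu => lt_of_lt_of_le hα hu.1).abs
  obtain ⟨u₀, hu₀, hmax⟩ := isCompact_Icc.exists_isMaxOn
    (nonempty_Icc.2 (by linarith : α ≤ α + 1)) hcont
  refine ⟨max C0 (|theta m u₀| * Real.exp (Real.pi * u₀)), le_max_of_le_left C0_nonneg,
    fun u hu => ?_⟩
  by_cases h1 : u ≤ α + 1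
  · have h2 := hmax (show u ∈ Icc α (α + 1) from ⟨hu, h1⟩)
    simp only [mem_setOf_eq] at h2
    have h3 : |theta m u| = |theta m u| * Real.exp (Real.pi * u) * Real.exp (-Real.pi * u) := by
      rw [mul_assoc, ← Real.exp_add]
      simp
    rw [h3]
    exact mul_le_mul_of_nonneg_right (h2.trans (le_max_right _ _)) (Real.exp_pos _).le
  · push Not at h1
    refine (theta_le m (by linarith)).trans ?_
    exact mul_le_mul_of_nonneg_right (le_max_left _ _) (Real.exp_pos _).le

/-- integrability against functions of at most exponential growth -/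
lemma integrable_of_growth (m : ℤ) {α : ℝ} (hα : 0 < α) {g : ℝ → ℝ} (hg : Measurable g)
    {b : ℝ} (hb : ∀ u, α ≤ u → |g u| ≤ b * Real.exp u) :
    IntegrableOn (fun u => theta m u * g u) (Ioi α) := by
  obtain ⟨B, hB, h⟩ := theta_bdd m hα
  have i1 : IntegrableOn (fun u : ℝ => B * b * Real.exp (-u)) (Ioi α) :=
    (integrableOn_exp_neg_Ioi α).const_mul _
  refine i1.mono' ?_ ?_
  · refine AEStronglyMeasurable.mul ?_ hg.aestronglyMeasurable
    exact ((continuousOn_theta m).mono fun u hu => lt_trans hα hu).aestronglyMeasurable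
      measurableSet_Ioi
  · filter_upwards [ae_restrict_mem measurableSet_Ioi] with u hu
    have hu' : α ≤ u := le_of_lt hu
    have hu0 : 0 < u := lt_trans hα hu
    have h1 := h u hu'
    have h2 := hb u hu'
    have h3 : 0 ≤ B * Real.exp (-Real.pi * u) := by positivity
    rw [Real.norm_eq_abs, abs_mul]
    calc |theta m u| * |g u| ≤ (B * Real.exp (-Real.pi * u)) * (b * Real.exp u) :=
          mul_le_mul h1 h2 (abs_nonneg _) h3
      _ = B * b * Real.exp (-Real.pi * u + u) := by rw [Real.exp_add]; ring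
      _ ≤ B * b * Real.exp (-u) := by
        have hb0 : 0 ≤ b := by
          by_contra hneg
          push Not at hneg
          have := (abs_nonneg (g u)).trans h2
          nlinarith [Real.exp_pos u]
        have := Real.pi_gt_three
        gcongr
        nlinarith

end Th
end P004G
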