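import Vale.Agent.P004G.H503.AsmG

/-!
# P004G, assembly: the bound for one block
-/

open Real MeasureTheory Set
open scoped ENNReal

namespace P004G
namespace Asm

open P004.Asm (cmain_ge exists_J Pol Pol_eval Pol_degree sqrt_bound sqrt_bound' norm5 norm6 wj_pos)

variable [Crv]

/-- a uniform bound for the error terms -/
lemma Rs_le (hWf : StWf) {Y n A J : ℕ} {K Cm cm Cn Co Cf σ T : ℝ} (Af B a b : ℕ)
    (ha : a = 2 * A + 1 + 8 * (A + Af + 1 + B)) {M Mr : ℕ → ℤ → ℝ}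
    (hY : 3 ≤ Y) (hT : 0 ≤ T) (hK1 : 1 ≤ K) (hCm : 1 ≤ Cm) (hCn : 1 ≤ Cn) (hCo : 1 ≤ Co)
    (hCf : 1 ≤ Cf) (hL : 100 ≤ Real.log Y) (hTL : 20 * T + 1 ≤ √(Real.log Y))
    (hb8 : K ≤ Real.log Y ^ (1 / 8 : ℝ)) (hbK : (b : ℝ) = 40 * K)
    (hJ1 : (2 : ℝ) ^ J ≤ Real.log Y ^ (1 / 4 : ℝ)) (hJ2 : Real.log Y ^ (1 / 4 : ℝ) < 2 ^ (J + 1))
    (hwin : WinHyp Y n A J K (√(Cm * Y)) M) (hMr : ∀ j ≤ J, nY Y (Mr j) ≤ √(Cm * Y) * (2 ^ j) ^ A)
    (hM0 : nY Y (M 0) ≤ √(Cm * Y) * Real.log Y ^ A)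
    (hMain : nY Y (fun m => M 0 m * Fw Y (fun x => psi Y x * Real.exp (K / Real.log Y * x)) m -
      cmain Y K) ≤ √(Cm * Y) * Real.exp (K - cm / 2 * √K))
    (houter : OutHyp Y n K Co σ) (hnear : NearHyp Y n J K Cn σ) {N SJ : ℝ}
    (hSJ0 : 0 ≤ SJ) (hSJ : SJ ≤ Cf * Y * Real.log Y ^ Af) :
    Rs Y J σ T (K / Real.log Y) a b M Mr N SJ (cmain Y K) ≤
      √N * (√(Cm * Y) * Real.exp (K - cm / 2 * √K) +
      √(Cm * Y) * K ^ A * (Co * (1 + 4 * K) ^ (a + n)) +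
      √(Cm * Y) * K ^ A * (Co * (1 + 4 * K) ^ (a + n)) * Real.exp 1) +
      √(Cm * Y) * √(Cm * Y) * Cn * (2 * 4 ^ A) * (1 + Real.exp (2 * T)) *
        (K ^ (A + n + a) * Real.exp (K / 5)) +
      (√Cm * (2 * Real.exp 1) * √Cf + √Cm * ((√2 * (2 * Th.C0 * (a.factorial : ℝ) *
        Real.exp (3 * T))) * ((2 + 2 * (A + B)).factorial : ℝ))) *
        (Y * Real.log Y ^ (-(B : ℝ))) := by
  have hY0 : (0 : ℝ) < Y := by exact_mod_cast (by omega : 0 < Y)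
  have hL0 : 0 < Real.log Y := by linarith
  have hL1 : 1 ≤ Real.log Y := by linarith
  have hK0 : 0 ≤ K := by linarith
  have hC0 := Th.C0_nonneg
  have hz0 : 0 ≤ K / Real.log Y := by positivity
  have hzs : K / Real.log Y ≤ 1 / √(Real.log Y) := by
    have h1 : K ≤ Real.log Y ^ (1 / 2 : ℝ) :=
      hb8.trans (Real.rpow_le_rpow_of_exponent_le hL1 (by norm_num))
    rw [← Real.sqrt_eq_rpow] at h1
    have h2 : √(Real.log Y) * √(Real.log Y) = Real.log Y := Real.mul_self_sqrt hL0.le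
    have h3 : 0 < √(Real.log Y) := Real.sqrt_pos.2 hL0
    rw [div_le_div_iff₀ hL0 h3]
    nlinarith
  have hs10 : 10 ≤ √(Real.log Y) := Real.le_sqrt_of_sq_le (by linarith)
  have hz1 : K / Real.log Y ≤ 1 := by
    refine hzs.trans ?_
    rw [div_le_one (by linarith)]
    linarith
  have hz6 : 2 * T * (K / Real.log Y) ≤ 1 / 3 := by
    calc 2 * T * (K / Real.log Y) ≤ 2 * T * (1 / √(Real.log Y)) := by gcongr
      _ = 2 * T / √(Real.log Y) := by ring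
      _ ≤ 1 / 3 := by
        rw [div_le_div_iff₀ (by linarith) (by norm_num)]
        linarith
  have hs0 : 0 ≤ √(Cm * Y) := Real.sqrt_nonneg _
  have hj4 : ∀ j ≤ J, (2 : ℝ) ^ j ≤ Real.log Y ^ (1 / 4 : ℝ) := fun j hj =>
    (pow_le_pow_right₀ (by norm_num) hj).trans hJ1
  have hzq : ∀ j < J, K / Real.log Y ≤ K / 2 ^ j := by
    intro j hj
    refine div_le_div_of_nonneg_left hK0 (by positivity) ?_
    refine (hj4 j hj.le).trans ?_
    calc Real.log Y ^ (1 / 4 : ℝ) ≤ Real.log Y ^ (1 : ℝ) :=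
          Real.rpow_le_rpow_of_exponent_le hL1 (by norm_num)
      _ = _ := Real.rpow_one _
  have N2 := norm2 hWf hY hK1 hCo hwin houter a b hbK
  have N3 := norm3 hWf hY hT hK1 hCo hs0 hwin houter a b hbK hz0 hz6
  have N4 := norm4 hWf hY hT hK1 hCn hs0 hwin hMr hnear a b (by omega) hz0 hz1 hzq
  obtain ⟨hsc1, hsc2, hsc3⟩ := inner_scale hL hT hTL hK0 hb8 hJ1 hJ2
  have hwJ := wj_pos hY J
  have N5 := norm5 A Af B a ha (by linarith : (0:ℝ) ≤ Cm) (by linarith : (0:ℝ) ≤ Cf) hY0.le hL1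
    hM0 (ζ := K / Real.log Y * (2 * wj Y J + 3 * T)) (by positivity) hsc1
    hSJ0 hSJ (w := 2 * wj Y J + 3 * T) (by positivity) hsc2
  have N6 := norm6 A B hY (by linarith : (0:ℝ) ≤ Cm)
    (mul_nonneg (Real.sqrt_nonneg 2) (mul_nonneg (mul_nonneg (mul_nonneg zero_le_two hC0)
      (Nat.cast_nonneg _)) (Real.exp_pos _).le) :
        0 ≤ √2 * (2 * Th.C0 * (a.factorial : ℝ) * Real.exp (3 * T))) hM0
  have N6' : nY Y (M 0) * (2 * Th.C0 * (a.factorial : ℝ) * Real.exp (3 * T) *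
      (Y * Real.exp (-√(Y : ℝ))) * √(2 * (Y : ℝ))) =
      nY Y (M 0) * (√2 * (2 * Th.C0 * (a.factorial : ℝ) * Real.exp (3 * T)) *
        (Y * Real.exp (-√(Y : ℝ))) * √(Y : ℝ)) := by
    rw [Real.sqrt_mul (by norm_num : (0 : ℝ) ≤ 2)]
    ring
  unfold Rs
  rw [N6']
  have q1 := mul_le_mul_of_nonneg_left (add_le_add (add_le_add hMain N2) N3)
    (Real.sqrt_nonneg N)
  have q2 : √Cm * (2 * Real.exp 1) * √Cf * (Y * Real.log Y ^ (-(B : ℝ))) +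
      √Cm * (√2 * (2 * Th.C0 * (a.factorial : ℝ) * Real.exp (3 * T)) *
        ((2 + 2 * (A + B)).factorial : ℝ)) * (Y * Real.log Y ^ (-(B : ℝ))) =
      (√Cm * (2 * Real.exp 1) * √Cf + √Cm * ((√2 * (2 * Th.C0 * (a.factorial : ℝ) *
        Real.exp (3 * T))) * ((2 + 2 * (A + B)).factorial : ℝ))) *
        (Y * Real.log Y ^ (-(B : ℝ))) := by
    ring
  linarith

/-- the centre -/
lemma centre_le {m : ℤ} {Y k₀ : ℕ} {q : ℝ} (hY : 3 ≤ Y) (hk : 1 ≤ k₀) (hq : 0 < q)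
    (h1 : |(m : ℝ)| / k₀ ≤ √q) (h2 : √q ≤ k₀ * |(m : ℝ)|) (hmY : m.natAbs ≤ Y)
    (hm2 : Y < 2 * m.natAbs) : |Real.log (Y / √q)| ≤ Real.log (2 * k₀) := by
  have hY0 : (0 : ℝ) < Y := by exact_mod_cast (by omega : 0 < Y)
  have hk0 : (1 : ℝ) ≤ k₀ := by exact_mod_cast hk
  have hsq : 0 < √q := Real.sqrt_pos.2 hq
  have e : |(m : ℝ)| = m.natAbs := by rw [Nat.cast_natAbs, Int.cast_abs]
  rw [e] at h1 h2
  have hm1 : (m.natAbs : ℝ) ≤ Y := by exact_mod_cast hmY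
  have hm3 : (Y : ℝ) < 2 * m.natAbs := by exact_mod_cast hm2
  rw [abs_le]
  constructor
  · rw [← Real.log_inv]
    apply Real.log_le_log (by positivity)
    rw [← one_div, div_le_div_iff₀ (by positivity) hsq]
    nlinarith
  · apply Real.log_le_log (by positivity)
    rw [div_le_iff₀ hsq]
    rw [div_le_iff₀ (by linarith)] at h1
    nlinarith

/-- elementary consequences of `K ≤ L^{1/8}` -/
lemma small_z {L K δ : ℝ} (hL : 100 ≤ L) (hK : 0 ≤ K) (hb8 : K ≤ L ^ (1 / 8 : ℝ)) (hδ : 0 < δ)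
    (hδL : 1 / δ ≤ √L) : K ≤ L ∧ 0 ≤ K / L ∧ K / L ≤ 1 / 2 ∧ K / L ≤ δ := by
  have hL0 : 0 < L := by linarith
  have hL1 : 1 ≤ L := by linarith
  have hKL : K ≤ L := by
    refine hb8.trans ?_
    calc L ^ (1 / 8 : ℝ) ≤ L ^ (1 : ℝ) :=
          Real.rpow_le_rpow_of_exponent_le hL1 (by norm_num)
      _ = _ := Real.rpow_one _
  have h3 : 0 < √L := Real.sqrt_pos.2 hL0
  have hzs : K / L ≤ 1 / √L := by
    have h1 : K ≤ L ^ (1 / 2 : ℝ) :=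
      hb8.trans (Real.rpow_le_rpow_of_exponent_le hL1 (by norm_num))
    rw [← Real.sqrt_eq_rpow] at h1
    have h2 : √L * √L = L := Real.mul_self_sqrt hL0.le
    rw [div_le_div_iff₀ hL0 h3]
    nlinarith
  have hs10 : 10 ≤ √L := Real.le_sqrt_of_sq_le (by linarith)
  refine ⟨hKL, by positivity, ?_, ?_⟩
  · refine hzs.trans ?_
    rw [div_le_div_iff₀ (by linarith) (by norm_num)]
    linarith
  · refine hzs.trans ?_
    rw [div_le_iff₀ (by linarith)]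
    rw [div_le_iff₀ hδ] at hδL
    linarith

/-- the conclusion for fixed `Y`, `b`, in terms of the hypotheses in norm form -/
lemma fixed (hWf : StWf) {Y n A J b : ℕ} {K Cm cm Cn Co Cf T B₀ c₀ c₁ c₃ P : ℝ} {K₀ : ℕ}
    (Af B a : ℕ) (ha : a = 2 * A + 1 + 8 * (A + Af + 1 + B)) {M Mr : ℕ → ℤ → ℝ}
    (hY : 3 ≤ Y) (hT : 0 ≤ T) (hK1 : 1 ≤ K) (hCm : 1 ≤ Cm) (hCn : 1 ≤ Cn) (hCo : 1 ≤ Co)
    (hCf : 1 ≤ Cf) (hP1 : 1 ≤ P) (hL : 100 ≤ Real.log Y) (hTL : 20 * T + 1 ≤ √(Real.log Y))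
    (hb8 : K ≤ Real.log Y ^ (1 / 8 : ℝ)) (hbK : (b : ℝ) = 40 * K)
    (hz2 : K / Real.log Y ≤ 1 / 2)
    (hJ1 : (2 : ℝ) ^ J ≤ Real.log Y ^ (1 / 4 : ℝ)) (hJ2 : Real.log Y ^ (1 / 4 : ℝ) < 2 ^ (J + 1))
    (hMM : ∀ m, ∀ j < J, M 0 m = M (j + 1) m * Mr (j + 1) m)
    (hwin : WinHyp Y n A J K (√(Cm * Y)) M) (hMr : ∀ j ≤ J, nY Y (Mr j) ≤ √(Cm * Y) * (2 ^ j) ^ A)
    (hM0 : nY Y (M 0) ≤ √(Cm * Y) * Real.log Y ^ A)
    (hMain : nY Y (fun m => M 0 m * Fw Y (fun x => psi Y x * Real.exp (K / Real.log Y * x)) m -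
      cmain Y K) ≤ √(Cm * Y) * Real.exp (K - cm / 2 * √K))
    (houter : ∀ σ : ℝ, |σ| ≤ T → OutHyp Y n K Co σ) (hnear : ∀ σ : ℝ, |σ| ≤ T → NearHyp Y n J K Cn σ)
    (hfin : ∀ m ∈ sqZ Y, Jz m ≠ ⊤)
    (hSJ : ∑ m ∈ sqZ Y, (Jz m).toReal ≤ Cf * Y * Real.log Y ^ Af)
    (hK₀ : 1 ≤ K₀) (hKT : Real.log K₀ ≤ T) (hB₀ : 1 ≤ B₀) (hc₀ : 0 < c₀) (hc₁ : 0 < c₁)
    (hcM : c₁ * Real.exp K ≤ cmain Y K) (hc₃0 : 0 ≤ c₃) (hc₃m : c₃ ≤ cm / 2) (hc₃ : c₃ ≤ 1 / 2)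
    (hpoly : ∀ D ≤ A + n + a, (1 + 4 * K) ^ D ≤ P * Real.exp (K / 4))
    {S : Finset ℤ} (hS : S ⊆ sqZ Y)
    (hdat : ∀ m ∈ S, ∃ (κ q : ℝ) (bb : ℕ → ℝ), (κ = 1 ∨ κ = -1) ∧ 0 < q ∧
      |Real.log (Y / √q)| ≤ T ∧ (∀ k, |bb k| ≤ B₀) ∧
      c₀ ≤ |∑ k ∈ K₀.divisors, bb k * (k : ℝ) ^ (1 + K / Real.log Y)| ∧
      ∫ u in Ioi (1 / √q), (∑ k ∈ K₀.divisors, bb k * theta m (u / k)) *
        (Gp (K / Real.log Y) a b (Real.log (u * Y)) +
        κ * Gp (K / Real.log Y) a b (2 * Real.log (Y / √q) - Real.log (u * Y))) = 0)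
    {W κ₃ : ℝ} (hW : W = (K₀.divisors.card : ℝ) * (B₀ * (K₀ : ℝ) ^ 2))
    (hκ₃ : κ₃ = √Cm * (2 * Real.exp 1) * √Cf + √Cm * ((√2 * (2 * Th.C0 * (a.factorial : ℝ) *
        Real.exp (3 * T))) * ((2 + 2 * (A + B)).factorial : ℝ))) :
    (S.card : ℝ) ≤ ((√Cm * (1 + Co * P * (1 + Real.exp 1))) ^ 2 / (c₀ / W * c₁) ^ 2 +
      2 * (Cm * Cn * (2 * 4 ^ A) * (1 + Real.exp (2 * T)) * P + κ₃) / (c₀ / W * c₁)) * Y *
      (Real.exp (-c₃ * √K) + Real.log Y ^ (-(B : ℝ))) := by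
  have hY0 : (0 : ℝ) < Y := by exact_mod_cast (by omega : 0 < Y)
  have hL0 : 0 < Real.log Y := by linarith
  have hK0 : 0 ≤ K := by linarith
  have hz0 : 0 ≤ K / Real.log Y := by positivity
  have hC0 := Th.C0_nonneg
  have hκ₃0 : 0 ≤ κ₃ := by rw [hκ₃]; positivity
  have hW0 : 0 < W := by
    rw [hW]
    have : 0 < K₀.divisors.card := Finset.card_pos.2 ⟨1, by
      rw [Nat.mem_divisors]; exact ⟨one_dvd _, by omega⟩⟩
    have h2 : (0 : ℝ) < (K₀.divisors.card : ℝ) := by exact_mod_cast this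
    have h3 : (1 : ℝ) ≤ K₀ := by exact_mod_cast hK₀
    positivity
  have hcM0 : 0 ≤ cmain Y K := le_trans (by positivity) hcM
  obtain ⟨hsc1, hsc2, hsc3⟩ := inner_scale hL hT hTL hK0 hb8 hJ1 hJ2
  have hsum := summed hY hT hz0 hz2 a b J (K₀ := K₀) (B₀ := B₀) (c₀ := c₀) (S := S)
    hKT hsc3 hB₀ hS (fun m hm => hfin m (hS hm)) hdat (M := M) (Mr := Mr) hMM hcM0
  have hRs : ∀ k ∈ K₀.divisors, (B₀ * (K₀ : ℝ) ^ 2) * Rs Y J (Real.log k) T (K / Real.log Y) a b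
      M Mr S.card (∑ m ∈ sqZ Y, (Jz m).toReal) (cmain Y K) ≤ (B₀ * (K₀ : ℝ) ^ 2) *
      (√(S.card : ℝ) * (√(Cm * Y) * Real.exp (K - cm / 2 * √K) +
      √(Cm * Y) * K ^ A * (Co * (1 + 4 * K) ^ (a + n)) +
      √(Cm * Y) * K ^ A * (Co * (1 + 4 * K) ^ (a + n)) * Real.exp 1) +
      √(Cm * Y) * √(Cm * Y) * Cn * (2 * 4 ^ A) * (1 + Real.exp (2 * T)) *
        (K ^ (A + n + a) * Real.exp (K / 5)) + κ₃ * (Y * Real.log Y ^ (-(B : ℝ)))) := by
    intro k hk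
    refine mul_le_mul_of_nonneg_left ?_ (by positivity)
    rw [hκ₃]
    have hk0 : (0 : ℝ) < k := by exact_mod_cast Nat.pos_of_mem_divisors hk
    have hkK : Real.log (k : ℝ) ≤ T :=
      (Real.log_le_log hk0 (by exact_mod_cast Nat.divisor_le hk : (k : ℝ) ≤ K₀)).trans hKT
    have hkabs : |Real.log (k : ℝ)| ≤ T := by
      rw [abs_of_nonneg (Real.log_natCast_nonneg k)]; exact hkK
    exact Rs_le hWf Af B a b ha hY hT hK1 hCm hCn hCo hCf hL hTL hb8 hbK hJ1 hJ2 hwin hMr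
      hM0 hMain (houter _ hkabs) (hnear _ hkabs)
      (Finset.sum_nonneg fun m _ => ENNReal.toReal_nonneg) hSJ
  have hsum2 := hsum.trans (Finset.sum_le_sum hRs)
  rw [Finset.sum_const, nsmul_eq_mul] at hsum2
  refine conclude (N := S.card) (Y := Y) (K := K) (Cm := Cm) (cm := cm)
    (c₁ := c₀ / W * c₁) (c₃ := c₃) (Co := Co) (Cn := Cn) (P := P) (κ₃ := κ₃)
    (LB := Real.log Y ^ (-(B : ℝ))) (cM := c₀ / W * cmain Y K) (E₂ := Real.exp (2 * T)) A a n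
    (Nat.cast_nonneg _) hY0 hK1 (by linarith) (by positivity)
    (by linarith) (by linarith) (by linarith) hκ₃0 (by positivity) (Real.exp_pos _).le
    (by
      rw [mul_assoc]
      exact mul_le_mul_of_nonneg_left hcM (by positivity))
    hc₃0 hc₃m hc₃ hpoly ?_
  have e : (S.card : ℝ) * (c₀ / W * cmain Y K) = (S.card : ℝ) * (c₀ * cmain Y K) / W := by
    field_simp
  rw [e, div_le_iff₀ hW0]
  refine hsum2.trans (le_of_eq ?_)
  rw [hW]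
  ring

/-- **The estimate for one block.** -/
theorem core (hFull : StFull) (hV : StVan2) (hWf : StWf)
    (hMoll : StMoll) : ∃ c L₀ : ℝ, 0 < c ∧ 100 ≤ L₀ ∧ ∀ B : ℕ, ∃ C : ℝ, 1 ≤ C ∧ ∀ (Y b : ℕ),
    L₀ ≤ Real.log Y → 40 ≤ b → ((b : ℝ) / 40) ≤ Real.log Y ^ (1 / 8 : ℝ) →
    ∀ S : Finset ℤ, S ⊆ sqZ Y → (∀ m ∈ S, Y < 2 * m.natAbs) → (∀ m ∈ S, Van m b) →
    (S.card : ℝ) ≤ C * Y * (Real.exp (-c * √(b / 40)) + Real.log Y ^ (-(B : ℝ))) := by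
  obtain ⟨n, A, Cm, cm, hCm, hcm, hmoll⟩ := hMoll
  obtain ⟨Cf, hCf, Af, hfull⟩ := hFull
  obtain ⟨K₀, k₀, B₀, c₀, δ, hK₀, hk₀, hB₀, hc₀, hδ, hdata⟩ := hV
  have hk0R : (1 : ℝ) ≤ k₀ := by exact_mod_cast hk₀
  obtain ⟨T, hTdef⟩ : ∃ T : ℝ, T = Real.log (2 * k₀) + Real.log K₀ := ⟨_, rfl⟩
  have hl1 : 0 ≤ Real.log (2 * k₀) := Real.log_nonneg (by linarith)
  have hl2 : 0 ≤ Real.log (K₀ : ℝ) := Real.log_natCast_nonneg K₀
  have hT0 : 0 ≤ T := by rw [hTdef]; linarith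
  obtain ⟨Cn, Yn, hCn, hnear⟩ := hWf.near n T hT0
  obtain ⟨Co, Yo, hCo, houter⟩ := hWf.outer n T hT0
  obtain ⟨c₁, hc₁, hcmain⟩ := cmain_ge
  obtain ⟨c₃, hc₃0, hc₃m, hc₃⟩ : ∃ c₃ : ℝ, 0 < c₃ ∧ c₃ ≤ cm / 2 ∧ c₃ ≤ 1 / 2 :=
    ⟨min (cm / 2) (1 / 2), by positivity, min_le_left _ _, min_le_right _ _⟩
  refine ⟨c₃, 100 + (20 * T + 1) ^ 2 + (1 / δ) ^ 2 + Yn + Yo, hc₃0, ?_, fun B => ?_⟩
  · have : 0 ≤ (20 * T + 1) ^ 2 + (1 / δ) ^ 2 + Yn + Yo := by positivity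
    linarith
  -- the number of low order terms
  obtain ⟨a, ha⟩ : ∃ a : ℕ, a = 2 * A + 1 + 8 * (A + Af + 1 + B) := ⟨_, rfl⟩
  obtain ⟨P, hP1, hP⟩ : ∃ P : ℝ, 1 ≤ P ∧ ∀ K : ℝ, 0 ≤ K → ∀ D ≤ A + n + a,
      (1 + 4 * K) ^ D ≤ P * Real.exp (K / 4) := by
    obtain ⟨P, hP1, hP⟩ := poly_exp (A + n + a)
    refine ⟨P, hP1, fun K hK D hD => le_trans ?_ (hP K hK)⟩
    exact pow_le_pow_right₀ (by linarith) hD
  obtain ⟨W, hWdef⟩ : ∃ W : ℝ, W = (K₀.divisors.card : ℝ) * (B₀ * (K₀ : ℝ) ^ 2) := ⟨_, rfl⟩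
  obtain ⟨κ₃, hκ₃⟩ : ∃ κ₃ : ℝ, κ₃ = √Cm * (2 * Real.exp 1) * √Cf + √Cm *
      ((√2 * (2 * Th.C0 * (a.factorial : ℝ) * Real.exp (3 * T))) *
        ((2 + 2 * (A + B)).factorial : ℝ)) := ⟨_, rfl⟩
  refine ⟨max 1 ((√Cm * (1 + Co * P * (1 + Real.exp 1))) ^ 2 / (c₀ / W * c₁) ^ 2 +
      2 * (Cm * Cn * (2 * 4 ^ A) * (1 + Real.exp (2 * T)) * P + κ₃) / (c₀ / W * c₁)),
      le_max_left _ _, fun Y b hL hb20 hb8 S hS hS2 hSV => ?_⟩
  have hL100 : 100 ≤ Real.log Y := by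
    have : 0 ≤ (20 * T + 1) ^ 2 + (1 / δ) ^ 2 + Yn + Yo := by positivity
    linarith
  have hY : 3 ≤ Y := by
    by_contra h
    push Not at h
    have h1 : (Y : ℝ) ≤ 2 := by exact_mod_cast (by omega : Y ≤ 2)
    have h2 : Real.log Y ≤ 2 := by
      rcases Nat.eq_zero_or_pos Y with h3 | h3
      · rw [h3]; simp
      · have h4 : (0 : ℝ) < Y := by exact_mod_cast h3
        linarith [Real.log_le_sub_one_of_pos h4]
    linarith
  have hY0 : (0 : ℝ) < Y := by exact_mod_cast (by omega : 0 < Y)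
  have hL0 : 0 < Real.log Y := by linarith
  have hL1 : 1 ≤ Real.log Y := by linarith
  have hYlog : Real.log Y ≤ Y := (Real.log_le_sub_one_of_pos hY0).trans (by linarith)
  have hYn : Yn ≤ Y := by
    have h1 : 0 ≤ (20 * T + 1) ^ 2 + (1 / δ) ^ 2 + (Yo : ℝ) := by positivity
    have h2 : (Yn : ℝ) ≤ Y := by linarith
    exact_mod_cast h2
  have hYo : Yo ≤ Y := by
    have h1 : 0 ≤ (20 * T + 1) ^ 2 + (1 / δ) ^ 2 + (Yn : ℝ) := by positivity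
    have h2 : (Yo : ℝ) ≤ Y := by linarith
    exact_mod_cast h2
  have hTL : 20 * T + 1 ≤ √(Real.log Y) := by
    apply Real.le_sqrt_of_sq_le
    have : 0 ≤ (1 / δ) ^ 2 + (Yn : ℝ) + Yo := by positivity
    linarith
  have hδL : 1 / δ ≤ √(Real.log Y) := by
    apply Real.le_sqrt_of_sq_le
    have : 0 ≤ (20 * T + 1) ^ 2 + (Yn : ℝ) + Yo := by positivity
    linarith
  obtain ⟨K, hK⟩ : ∃ K : ℝ, K = (b : ℝ) / 40 := ⟨_, rfl⟩
  rw [← hK] at hb8 ⊢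
  have hbK : (b : ℝ) = 40 * K := by rw [hK]; ring
  have hK1 : 1 ≤ K := by
    rw [hK, le_div_iff₀ (by norm_num)]
    have : (40 : ℝ) ≤ b := by exact_mod_cast hb20
    linarith
  have hK0 : 0 ≤ K := by linarith
  obtain ⟨hKL, hz0, hz2, hzδ⟩ := small_z hL100 hK0 hb8 hδ hδL
  obtain ⟨M, Mr, hMM, hWin, hMr, hM0, hMain⟩ := hmoll Y K hY hK1 hb8
  obtain ⟨J, hJ1, hJ2⟩ := exists_J hL1
  have hj4 : ∀ j ≤ J, (2 : ℝ) ^ j ≤ Real.log Y ^ (1 / 4 : ℝ) := fun j hj =>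
    (pow_le_pow_right₀ (by norm_num) hj).trans hJ1
  have hSJ : ∑ m ∈ sqZ Y, (Jz m).toReal ≤ Cf * Y * Real.log Y ^ Af ∧
      ∀ m ∈ sqZ Y, Jz m ≠ ⊤ := by
    have h1 := hfull Y hY
    rw [sumJ_eq] at h1
    have hfin : ∀ m ∈ sqZ Y, Jz m ≠ ⊤ := by
      intro m hm h2
      have h3 : Jz m ≤ ∑ m ∈ sqZ Y, Jz m := Finset.single_le_sum (fun _ _ => zero_le) hm
      rw [h2, top_le_iff] at h3
      rw [h3, top_le_iff] at h1
      exact ENNReal.ofReal_ne_top h1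
    refine ⟨?_, hfin⟩
    rw [← ENNReal.toReal_sum hfin]
    exact ENNReal.toReal_le_of_le_ofReal (by positivity) h1
  have hdat : ∀ m ∈ S, ∃ (κ q : ℝ) (bb : ℕ → ℝ), (κ = 1 ∨ κ = -1) ∧ 0 < q ∧
      |Real.log (Y / √q)| ≤ T ∧ (∀ k, |bb k| ≤ B₀) ∧
      c₀ ≤ |∑ k ∈ K₀.divisors, bb k * (k : ℝ) ^ (1 + K / Real.log Y)| ∧
      ∫ u in Ioi (1 / √q), (∑ k ∈ K₀.divisors, bb k * theta m (u / k)) *
        (Gp (K / Real.log Y) a b (Real.log (u * Y)) +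
        κ * Gp (K / Real.log Y) a b (2 * Real.log (Y / √q) - Real.log (u * Y))) = 0 := by
    intro m hm
    obtain ⟨κ, q, bb, g1, g2, g3, g4, g5, g6, g7⟩ := hdata m (mem_sqZ.1 (hS hm)).2
    refine ⟨κ, q, bb, g1, g2, ?_, g5, g6 _ hz0 hzδ, ?_⟩
    · have h1 := centre_le hY hk₀ g2 g3 g4 (mem_sqZ.1 (hS hm)).1 (hS2 m hm)
      rw [hTdef]; linarith
    · have h1 := g7 b Y (Pol (K / Real.log Y) a b) (by omega) (hSV m hm)
        (Pol_degree (K / Real.log Y) a b)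
      simp only [Pol_eval] at h1
      exact h1
  have hwin : WinHyp Y n A J K (√(Cm * Y)) M := by
    intro j h β hj h1 h2 h3 h4
    refine (nY_le (hWin j h β (hj4 j hj) h1 h2 h3 h4)).trans ?_
    apply sqrt_bound A (by linarith) hY0.le ?_ h3
    have : (1 : ℝ) ≤ 2 ^ j := one_le_pow₀ (by norm_num)
    nlinarith
  have hMr' : ∀ j ≤ J, nY Y (Mr j) ≤ √(Cm * Y) * (2 ^ j) ^ A := by
    intro j hj
    refine (nY_le (hMr j (hj4 j hj))).trans ?_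
    exact sqrt_bound' A (by linarith) hY0.le (one_le_pow₀ (by norm_num))
  have hM0' : nY Y (M 0) ≤ √(Cm * Y) * Real.log Y ^ A :=
    (nY_le hM0).trans (sqrt_bound' A (by linarith) hY0.le hL1)
  have N1 : nY Y (fun m => M 0 m * Fw Y (fun x => psi Y x * Real.exp (K / Real.log Y * x)) m -
      cmain Y K) ≤ √(Cm * Y) * Real.exp (K - cm / 2 * √K) := by
    refine (nY_le hMain).trans ?_
    rw [Real.sqrt_mul (by positivity)]
    refine mul_le_mul_of_nonneg_left ?_ (Real.sqrt_nonneg _)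
    apply Real.sqrt_le_iff.2
    refine ⟨(Real.exp_pos _).le, ?_⟩
    rw [← Real.exp_nat_mul, Real.exp_le_exp]
    push_cast
    linarith
  have hfin := fixed hWf Af B a ha hY hT0 hK1 hCm hCn hCo hCf hP1 hL100 hTL hb8 hbK hz2 hJ1 hJ2
    (fun m j hj => hMM (j + 1) m (hj4 (j + 1) (by omega))) hwin hMr' hM0' N1
    (fun σ hσ a' b' i hi x => houter Y a' b' K σ hY hYo hK1 hKL hσ i hi x)
    (fun σ hσ j a' b' hj i hi x => hnear Y j a' b' K σ hY hYn hK1 hKL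
      (by
        have h1 := hj4 j hj.le
        have h4 : 0 ≤ Real.log Y ^ (1 / 4 : ℝ) := Real.rpow_nonneg hL0.le _
        linarith) hσ i hi x)
    hSJ.2 hSJ.1 hK₀ (by rw [hTdef]; linarith) hB₀ hc₀ hc₁ (hcmain Y K hY hK0 hKL) hc₃0.le hc₃m
    hc₃ (hP K hK0) hS hdat hWdef hκ₃
  refine hfin.trans ?_
  have h1 : 0 ≤ Real.exp (-c₃ * √K) + Real.log Y ^ (-(B : ℝ)) :=
    add_nonneg (Real.exp_pos _).le (Real.rpow_nonneg hL0.le _)
  refine mul_le_mul_of_nonneg_right ?_ h1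
  exact mul_le_mul_of_nonneg_right (le_max_right _ _) hY0.le

end Asm

variable [Crv]

/-- Module I2. -/
theorem pfBlock (hFull : StFull) (hV : StVan2) (hWf : StWf) (hMoll : StMoll) : StBlock := by
  classical
  obtain ⟨c₀, L₀, hc₀, hL₀, hcore⟩ := Asm.core hFull hV hWf hMoll
  refine ⟨c₀ / 8, by positivity, fun B => ?_⟩
  obtain ⟨C, hC, hcore⟩ := hcore B
  have hF : (1 : ℝ) ≤ ((16 * B).factorial : ℝ) := by exact_mod_cast Nat.factorial_pos _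
  obtain ⟨D, hD, hDdef⟩ : ∃ D : ℝ, 0 ≤ D ∧ D = ((16 * B).factorial : ℝ) * (2 / c₀) ^ (16 * B) :=
    ⟨_, by positivity, rfl⟩
  refine ⟨2 * (L₀ ^ B + Real.exp c₀) + C * (1 + D), ?_, fun Y r hY => ?_⟩
  · have h1 : (1 : ℝ) ≤ L₀ ^ B := one_le_pow₀ (by linarith)
    have h2 := Real.exp_pos c₀
    have h3 : 0 ≤ C * (1 + D) := by positivity
    linarith
  have hY0 : (0 : ℝ) < Y := by exact_mod_cast (by omega : 0 < Y)
  have hL1 : 1 ≤ Real.log Y := by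
    have h3 : (3 : ℝ) ≤ Y := by exact_mod_cast hY
    rw [Real.le_log_iff_exp_le hY0]
    linarith [Real.exp_one_lt_d9]
  have hL0 : 0 < Real.log Y := by linarith
  obtain ⟨L, hL⟩ : ∃ L : ℝ, L = Real.log Y := ⟨_, rfl⟩
  rw [← hL] at hL1 hL0 ⊢
  obtain ⟨S, hSdef⟩ : ∃ S : Finset ℤ, S = (sqZ Y).filter (fun m => Y < 2 * m.natAbs ∧ Van m r) :=
    ⟨_, rfl⟩
  rw [← hSdef]
  have hSsub : S ⊆ sqZ Y := by rw [hSdef]; exact Finset.filter_subset _ _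
  have hScard : (S.card : ℝ) ≤ 2 * Y := by
    have h : (S.card : ℝ) ≤ ((sqZ Y).card : ℝ) := by exact_mod_cast Finset.card_le_card hSsub
    exact h.trans (Asm.card_sqZ Y)
  have hS2 : ∀ m ∈ S, Y < 2 * m.natAbs := fun m hm => by
    rw [hSdef] at hm; exact (Finset.mem_filter.1 hm).2.1
  have hSV : ∀ m ∈ S, Van m r := fun m hm => by
    rw [hSdef] at hm; exact (Finset.mem_filter.1 hm).2.2
  have hE := Real.exp_pos (-(c₀ / 8) * √r)
  have hLB : 0 < L ^ (-(B : ℝ)) := by positivity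
  have hEc := Real.exp_pos c₀
  have h100 : (0 : ℝ) < L₀ ^ B := by positivity
  have hCD : 0 ≤ C * (1 + D) := by positivity
  have hsum0 : 0 < Real.exp (-(c₀ / 8) * √r) + L ^ (-(B : ℝ)) := by positivity
  -- it suffices to bound by one of the three summands
  have hred : ∀ T : ℝ, T ≤ 2 * (L₀ ^ B + Real.exp c₀) + C * (1 + D) →
      (S.card : ℝ) ≤ T * Y * (Real.exp (-(c₀ / 8) * √r) + L ^ (-(B : ℝ))) →
      (S.card : ℝ) ≤ (2 * (L₀ ^ B + Real.exp c₀) + C * (1 + D)) * Y *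
        (Real.exp (-(c₀ / 8) * √r) + L ^ (-(B : ℝ))) := by
    intro T hT h
    refine h.trans ?_
    gcongr
  by_cases hL100 : L < L₀
  · refine hred (2 * L₀ ^ B) (by linarith) ?_
    have h1 : 1 ≤ L₀ ^ B * L ^ (-(B : ℝ)) := by
      rw [Real.rpow_neg hL0.le, Real.rpow_natCast, ← div_eq_mul_inv, le_div_iff₀ (by positivity),
        one_mul]
      exact pow_le_pow_left₀ hL0.le hL100.le B
    calc (S.card : ℝ) ≤ 2 * Y * 1 := by linarith
      _ ≤ 2 * Y * (L₀ ^ B * L ^ (-(B : ℝ))) := by gcongr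
      _ ≤ 2 * Y * (L₀ ^ B * (Real.exp (-(c₀ / 8) * √r) + L ^ (-(B : ℝ)))) := by
          gcongr
          linarith
      _ = _ := by ring
  · push Not at hL100
    have hL8 : 1 ≤ L ^ (1 / 8 : ℝ) := Real.one_le_rpow hL1 (by norm_num)
    by_cases hr20 : r < 40
    · refine hred (2 * Real.exp c₀) (by linarith) ?_
      have h1 : 1 ≤ Real.exp c₀ * Real.exp (-(c₀ / 8) * √r) := by
        rw [← Real.exp_add]
        apply Real.one_le_exp
        have h2 : √(r : ℝ) ≤ 8 := by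
          rw [Real.sqrt_le_left (by norm_num)]
          have : (r : ℝ) ≤ 40 := by exact_mod_cast hr20.le
          linarith
        nlinarith
      calc (S.card : ℝ) ≤ 2 * Y * 1 := by linarith
        _ ≤ 2 * Y * (Real.exp c₀ * Real.exp (-(c₀ / 8) * √r)) := by gcongr
        _ ≤ 2 * Y * (Real.exp c₀ * (Real.exp (-(c₀ / 8) * √r) + L ^ (-(B : ℝ)))) := by
            gcongr
            linarith
        _ = _ := by ring
    · push Not at hr20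
      refine hred (C * (1 + D)) (by linarith) ?_
      by_cases hrL : (r : ℝ) / 40 ≤ L ^ (1 / 8 : ℝ)
      · have h1 := hcore Y r (by rw [← hL]; exact hL100) hr20 (by rw [← hL]; exact hrL) S hSsub
          hS2 hSV
        rw [← hL] at h1
        refine h1.trans ?_
        have h2 : Real.exp (-c₀ * √((r : ℝ) / 40)) ≤ Real.exp (-(c₀ / 8) * √r) := by
          rw [Real.exp_le_exp]
          have h3 : √(r : ℝ) / 8 ≤ √((r : ℝ) / 40) := by
            apply Real.le_sqrt_of_sq_le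
            rw [div_pow, Real.sq_sqrt (by positivity)]
            have : (0 : ℝ) ≤ r := by positivity
            linarith
          nlinarith
        have h4 : C ≤ C * (1 + D) := by nlinarith
        gcongr
      · push Not at hrL
        -- the truncated rank
        obtain ⟨b, hb⟩ : ∃ b : ℕ, b = ⌊40 * L ^ (1 / 8 : ℝ)⌋₊ := ⟨_, rfl⟩
        have hbr : b ≤ r := by
          rw [hb]
          apply Nat.floor_le_of_le
          rw [lt_div_iff₀ (by norm_num)] at hrL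
          linarith
        have hb20 : 40 ≤ b := by
          rw [hb]
          apply Nat.le_floor
          push_cast
          linarith
        have hbL : (b : ℝ) / 40 ≤ L ^ (1 / 8 : ℝ) := by
          rw [div_le_iff₀ (by norm_num), hb]
          have := Nat.floor_le (a := 40 * L ^ (1 / 8 : ℝ)) (by positivity)
          linarith
        have hbL' : L ^ (1 / 8 : ℝ) / 4 ≤ (b : ℝ) / 40 := by
          have := Nat.lt_floor_add_one (40 * L ^ (1 / 8 : ℝ))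
          rw [← hb] at this
          rw [div_le_div_iff₀ (by norm_num) (by norm_num)]
          linarith
        have h1 := hcore Y b (by rw [← hL]; exact hL100) hb20 (by rw [← hL]; exact hbL) S hSsub
          hS2 (fun m hm i hi => hSV m hm i (by omega))
        rw [← hL] at h1
        refine h1.trans ?_
        have h16 : √(L ^ (1 / 8 : ℝ) / 4) = L ^ (1 / 16 : ℝ) / 2 := by
          rw [Real.sqrt_div (by positivity), show (4 : ℝ) = 2 ^ 2 by norm_num,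
            Real.sqrt_sq (by norm_num), Real.sqrt_eq_rpow, ← Real.rpow_mul hL0.le]
          norm_num
        have h2 : Real.exp (-c₀ * √((b : ℝ) / 40)) ≤ D * L ^ (-(B : ℝ)) := by
          have h3 : L ^ (1 / 16 : ℝ) / 2 ≤ √((b : ℝ) / 40) := by
            rw [← h16]; exact Real.sqrt_le_sqrt hbL'
          have h4 := Real.pow_div_factorial_le_exp (c₀ * (L ^ (1 / 16 : ℝ) / 2))
            (by positivity) (16 * B)
          have h5 : Real.exp (c₀ * (L ^ (1 / 16 : ℝ) / 2)) ≤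
              Real.exp (c₀ * √((b : ℝ) / 40)) := by
            rw [Real.exp_le_exp]
            exact mul_le_mul_of_nonneg_left h3 hc₀.le
          have h6 : (L ^ (1 / 16 : ℝ)) ^ (16 * B) = L ^ B := by
            rw [← Real.rpow_natCast, ← Real.rpow_mul hL0.le, ← Real.rpow_natCast L B]
            congr 1
            push_cast
            ring
          have h7 : (c₀ * (L ^ (1 / 16 : ℝ) / 2)) ^ (16 * B) = L ^ B / (2 / c₀) ^ (16 * B) := by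
            rw [← h6, mul_pow, div_pow, div_pow]
            field_simp
          rw [h7] at h4
          rw [neg_mul, Real.exp_neg, Real.rpow_neg hL0.le, Real.rpow_natCast, ← div_eq_mul_inv,
            hDdef]
          rw [inv_le_comm₀ (Real.exp_pos _) (by positivity)]
          refine le_trans (le_of_eq ?_) (h4.trans h5)
          field_simp
        calc C * Y * (Real.exp (-c₀ * √((b : ℝ) / 40)) + L ^ (-(B : ℝ))) ≤
              C * Y * (D * L ^ (-(B : ℝ)) + L ^ (-(B : ℝ))) := by gcongr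
          _ = C * (1 + D) * Y * L ^ (-(B : ℝ)) := by ring
          _ ≤ C * (1 + D) * Y * (Real.exp (-(c₀ / 8) * √r) + L ^ (-(B : ℝ))) := by
              gcongr
              linarith

end P004G
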