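import Vale.Agent.P004G.H503.AsmA

/-!
# P004G, assembly, part B: the identity for one `m` and one dilation
-/

open Real MeasureTheory Set
open scoped ENNReal

namespace P004G
namespace Asm

open P004.Asm (ηf_nonneg ηf_le_one ηf_zero ηf_one ηf_cont wj_pos wj_succ Wn_cont psi_cont Wn_abs_le
  psi_abs_le Wn_supp psi_supp partition Pol Pol_eval Pol_degree Gp_reflect Gp_abs_le meas_log
  int_bdd)

variable [Crv]

/-- the inner part of the folded integral over `u > α`, centre `c`, shift `s` -/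
noncomputable def Tin (Y J : ℕ) (m : ℤ) (α c s z κ : ℝ) (a b : ℕ) : ℝ :=
  ∫ u in Ioi α, theta m u * (Gp z a b (Real.log (u * Y) + s) +
    κ * Gp z a b (2 * c - (Real.log (u * Y) + s))) *
      (1 - ηf (Real.log (u * Y) / wj Y J))

/-- the part of the folded integral near infinity -/
noncomputable def Tout (Y : ℕ) (m : ℤ) (α c s z κ : ℝ) (a b : ℕ) : ℝ :=
  ∫ u in Ioi α, theta m u * (Gp z a b (Real.log (u * Y) + s) +
    κ * Gp z a b (2 * c - (Real.log (u * Y) + s))) *
      (ηf (Real.log (u * Y) / wj Y 0) * ηf (Real.log (u * Y) / (3 / 2 * Real.log Y)))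

/-- the integrand is integrable -/
lemma int_fold (m : ℤ) {κ : ℝ} {Y : ℕ} (hY : 3 ≤ Y) {α : ℝ} (hα : 0 < α) (z c s : ℝ) (a b : ℕ) :
    IntegrableOn (fun u => theta m u * (Gp z a b (Real.log (u * Y) + s) +
      κ * Gp z a b (2 * c - (Real.log (u * Y) + s)))) (Ioi α) := by
  have h1 := int_Gp m hα hY z 1 s a b
  have h2 := (int_Gp m hα hY z (-1) (2 * c - s) a b).const_mul κ
  refine IntegrableOn.congr_fun (Integrable.add h1 h2) (fun u _ => ?_) measurableSet_Ioi
  simp only [Pi.add_apply]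
  have e : -1 * Real.log (u * Y) + (2 * c - s) = 2 * c - (Real.log (u * Y) + s) := by ring
  rw [one_mul, e]
  ring

/-- the partition of the folded integral -/
lemma folded_split (m : ℤ) {κ : ℝ} {Y : ℕ} (hY : 3 ≤ Y) {α : ℝ} (hα : 0 < α) (z c s : ℝ)
    (a b J : ℕ) (hJ : Real.log (α * Y) < wj Y J) :
    ∫ u in Ioi α, theta m u * (Gp z a b (Real.log (u * Y) + s) +
      κ * Gp z a b (2 * c - (Real.log (u * Y) + s))) =
    Tin Y J m α c s z κ a b + ∑ j ∈ Finset.range J,
      (Fw Y (fun x => Wn Y j x * Gp z a b (x + s)) m +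
        κ * ∑ l ∈ Finset.range b, (2 * c * z) ^ l / (l.factorial : ℝ) *
          Fw Y (fun x => Wn Y j x * Gp z (a - l) (b - l) (-(x + s))) m) +
      (Fw Y (fun x => psi Y x * Gp z a b (x + s)) m +
        κ * ∑ l ∈ Finset.range b, (2 * c * z) ^ l / (l.factorial : ℝ) *
          Fw Y (fun x => psi Y x * Gp z (a - l) (b - l) (-(x + s))) m) +
      Tout Y m α c s z κ a b := by
  set F : ℝ → ℝ := fun u => theta m u * (Gp z a b (Real.log (u * Y) + s) +
      κ * Gp z a b (2 * c - (Real.log (u * Y) + s))) with hF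
  have hFi : IntegrableOn F (Ioi α) := int_fold m hY hα z c s a b
  have hin : IntegrableOn (fun u => F u * (1 - ηf (Real.log (u * Y) / wj Y J))) (Ioi α) := by
    refine int_bdd (b := 1) hFi ?_ ?_
    · exact meas_log (W := fun x => 1 - ηf (x / wj Y J))
        (continuous_const.sub (ηf_cont.comp (continuous_id.div_const _))) Y
    · intro u
      have h1 := ηf_nonneg (Real.log (u * Y) / wj Y J)
      have h2 := ηf_le_one (Real.log (u * Y) / wj Y J)
      rw [abs_of_nonneg (by linarith)]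
      linarith
  have hj : ∀ j, IntegrableOn (fun u => F u * Wn Y j (Real.log (u * Y))) (Ioi α) :=
    fun j => int_bdd hFi (meas_log (Wn_cont Y j) Y) (fun u => Wn_abs_le Y j _)
  have hpsi : IntegrableOn (fun u => F u * psi Y (Real.log (u * Y))) (Ioi α) :=
    int_bdd hFi (meas_log (psi_cont Y) Y) (fun u => psi_abs_le Y _)
  have hout : IntegrableOn (fun u => F u * (ηf (Real.log (u * Y) / wj Y 0) *
      ηf (Real.log (u * Y) / (3 / 2 * Real.log Y)))) (Ioi α) := by
    refine int_bdd (b := 1) hFi ?_ ?_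
    · exact meas_log (W := fun x => ηf (x / wj Y 0) * ηf (x / (3 / 2 * Real.log Y)))
        ((ηf_cont.comp (continuous_id.div_const _)).mul
          (ηf_cont.comp (continuous_id.div_const _))) Y
    · intro u
      have h1 := ηf_nonneg (Real.log (u * Y) / wj Y 0)
      have h2 := ηf_le_one (Real.log (u * Y) / wj Y 0)
      have h3 := ηf_nonneg (Real.log (u * Y) / (3 / 2 * Real.log Y))
      have h4 := ηf_le_one (Real.log (u * Y) / (3 / 2 * Real.log Y))
      rw [abs_of_nonneg (by positivity)]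
      calc _ ≤ (1 : ℝ) * 1 := mul_le_mul h2 h4 h3 zero_le_one
        _ = 1 := one_mul 1
  have e1 : ∫ u in Ioi α, F u = ∫ u in Ioi α,
      (F u * (1 - ηf (Real.log (u * Y) / wj Y J)) +
        ∑ j ∈ Finset.range J, F u * Wn Y j (Real.log (u * Y)) +
        F u * psi Y (Real.log (u * Y)) +
        F u * (ηf (Real.log (u * Y) / wj Y 0) *
          ηf (Real.log (u * Y) / (3 / 2 * Real.log Y)))) := by
    refine setIntegral_congr_fun measurableSet_Ioi fun u _ => ?_
    have := partition Y J (Real.log (u * Y))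
    rw [← Finset.mul_sum, ← mul_add, ← mul_add, ← mul_add, this, mul_one]
  have hsum : IntegrableOn (fun u => ∑ j ∈ Finset.range J, F u * Wn Y j (Real.log (u * Y)))
      (Ioi α) := integrable_finsetSum _ fun j _ => hj j
  have i12 : IntegrableOn (fun u => F u * (1 - ηf (Real.log (u * Y) / wj Y J)) +
      ∑ j ∈ Finset.range J, F u * Wn Y j (Real.log (u * Y))) (Ioi α) := hin.add hsum
  have i123 : IntegrableOn (fun u => F u * (1 - ηf (Real.log (u * Y) / wj Y J)) +
      ∑ j ∈ Finset.range J, F u * Wn Y j (Real.log (u * Y)) +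
      F u * psi Y (Real.log (u * Y))) (Ioi α) := i12.add hpsi
  rw [e1, integral_add i123 hout, integral_add i12 hpsi, integral_add hin hsum,
    integral_finsetSum _ fun j _ => hj j]
  have hmono : ∀ j < J, wj Y J ≤ wj Y (j + 1) := by
    intro j hj
    unfold P004.wj
    have h1 : (2 : ℝ) ^ (j + 1) ≤ 2 ^ J := pow_le_pow_right₀ (by norm_num) hj
    have h2 : 0 ≤ Real.log (Y : ℝ) := Real.log_natCast_nonneg Y
    gcongr
  have hwn : ∀ j ∈ Finset.range J, ∫ u in Ioi α, F u * Wn Y j (Real.log (u * Y)) =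
      Fw Y (fun x => Wn Y j x * Gp z a b (x + s)) m +
        κ * ∑ l ∈ Finset.range b, (2 * c * z) ^ l / (l.factorial : ℝ) *
          Fw Y (fun x => Wn Y j x * Gp z (a - l) (b - l) (-(x + s))) m := by
    intro j hj'
    exact window_eq m hY hα z c s a b (Wn_cont Y j) (Wn_abs_le Y j)
      (fun x hx => lt_of_lt_of_le (hJ.trans_le (hmono j (Finset.mem_range.1 hj')))
        (Wn_supp hY j hx).1)
  have hps : ∫ u in Ioi α, F u * psi Y (Real.log (u * Y)) =
      Fw Y (fun x => psi Y x * Gp z a b (x + s)) m +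
        κ * ∑ l ∈ Finset.range b, (2 * c * z) ^ l / (l.factorial : ℝ) *
          Fw Y (fun x => psi Y x * Gp z (a - l) (b - l) (-(x + s))) m := by
    have h0 : wj Y J ≤ wj Y 0 := by
      unfold P004.wj
      have h1 : (2 : ℝ) ^ 0 ≤ 2 ^ J := pow_le_pow_right₀ (by norm_num) (Nat.zero_le J)
      have h2 : 0 ≤ Real.log (Y : ℝ) := Real.log_natCast_nonneg Y
      gcongr
    exact window_eq m hY hα z c s a b (psi_cont Y) (psi_abs_le Y)
      (fun x hx => lt_of_lt_of_le (hJ.trans_le h0) (psi_supp hY hx).1)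
  rw [Finset.sum_congr rfl hwn, hps]
  rfl

/-- splitting off the exponential in the outer window -/
lemma psi_split (m : ℤ) {Y : ℕ} (hY : 3 ≤ Y) {z : ℝ} (hz : 0 ≤ z) (s : ℝ) (a b : ℕ) :
    Fw Y (fun x => psi Y x * Gp z a b (x + s)) m =
      Real.exp (z * s) * Fw Y (fun x => psi Y x * Real.exp (z * x)) m +
      Fw Y (fun x => psi Y x * (Gp z a b (x + s) - Real.exp (z * (x + s)))) m := by
  have h0 : (1 : ℝ) < Y := by exact_mod_cast (by omega : 1 < Y)
  have hL := Real.log_pos h0
  have i1 := int_win m hY z 1 s a b (psi_cont Y) (psi_abs_le Y)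
    (fun x hx => (psi_supp hY hx).1)
  have i0 := int_win m hY z 1 s 0 1 (psi_cont Y) (psi_abs_le Y)
    (fun x hx => (psi_supp hY hx).1)
  have i0' : IntegrableOn (fun u => theta m u * psi Y (Real.log (u * Y))) (Ioi 0) := by
    refine i0.congr_fun (fun u _ => ?_) measurableSet_Ioi
    simp [P004.Gp]
  have i2 : IntegrableOn (fun u => theta m u * (psi Y (Real.log (u * Y)) *
      Real.exp (z * Real.log (u * Y)))) (Ioi 0) := by
    have h1 := int_bdd (b := Real.exp (z * (3 * Real.log Y))) i0'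
      (g := fun u => Real.exp (z * min (Real.log (u * Y)) (3 * Real.log Y))) ?_ ?_
    · refine h1.congr_fun (fun u _ => ?_) measurableSet_Ioi
      simp only
      by_cases hp : psi Y (Real.log (u * Y)) = 0
      · rw [hp]; ring
      · rw [min_eq_left (psi_supp hY hp).2]
        ring
    · exact meas_log (W := fun x => Real.exp (z * min x (3 * Real.log Y))) (by fun_prop) Y
    · intro u
      rw [Real.abs_exp, Real.exp_le_exp]
      exact mul_le_mul_of_nonneg_left (min_le_right _ _) hz
  unfold Fw Fn P004.cfY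
  rw [← integral_const_mul, ← integral_add (i2.const_mul _)]
  · refine setIntegral_congr_fun measurableSet_Ioi fun u _ => ?_
    simp only
    rw [mul_add z, Real.exp_add]
    ring
  · refine IntegrableOn.congr_fun (i1.sub (i2.const_mul (Real.exp (z * s)))) (fun u _ => ?_)
      measurableSet_Ioi
    simp only [Pi.sub_apply]
    rw [mul_add z, Real.exp_add, one_mul]
    ring

/-- change of variables in one dilate -/
lemma dilate (m : ℤ) {κ : ℝ} {Y : ℕ} (hY : 3 ≤ Y) {α : ℝ} (hα : 0 < α) (z c : ℝ) (a b : ℕ)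
    {k : ℕ} (hk : k ≠ 0) :
    ∫ u in Ioi α, theta m (u / k) * (Gp z a b (Real.log (u * Y)) +
      κ * Gp z a b (2 * c - Real.log (u * Y))) =
    k * ∫ u in Ioi (α / k), theta m u * (Gp z a b (Real.log (u * Y) + Real.log k) +
      κ * Gp z a b (2 * c - (Real.log (u * Y) + Real.log k))) := by
  have hk0 : (0 : ℝ) < k := by exact_mod_cast Nat.pos_of_ne_zero hk
  have hY0 : (0 : ℝ) < Y := by exact_mod_cast (by omega : 0 < Y)
  have h1 := integral_comp_mul_left_Ioi (fun u : ℝ => theta m (u / k) *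
    (Gp z a b (Real.log (u * Y)) + κ * Gp z a b (2 * c - Real.log (u * Y)))) (α / k) hk0
  rw [smul_eq_mul, show (k : ℝ) * (α / k) = α by field_simp] at h1
  have h2 : ∫ u in Ioi α, theta m (u / k) * (Gp z a b (Real.log (u * Y)) +
      κ * Gp z a b (2 * c - Real.log (u * Y))) = k * ((k : ℝ)⁻¹ * ∫ u in Ioi α, theta m (u / k) *
      (Gp z a b (Real.log (u * Y)) + κ * Gp z a b (2 * c - Real.log (u * Y)))) := by
    rw [← mul_assoc, mul_inv_cancel₀ hk0.ne', one_mul]
  rw [h2, ← h1]
  congr 1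
  refine setIntegral_congr_fun measurableSet_Ioi fun u hu => ?_
  have hu0 : 0 < u := lt_trans (by positivity : (0 : ℝ) < α / k) hu
  have e1 : (k : ℝ) * u / k = u := by field_simp
  have e2 : Real.log (k * u * Y) = Real.log (u * Y) + Real.log k := by
    rw [show (k : ℝ) * u * Y = (u * Y) * k by ring, Real.log_mul (by positivity) hk0.ne']
  rw [e1, e2]

lemma int_dilate (m : ℤ) {κ : ℝ} {Y : ℕ} (hY : 3 ≤ Y) {α : ℝ} (hα : 0 < α) (z c : ℝ) (a b : ℕ)
    {k : ℕ} (hk : k ≠ 0) :
    IntegrableOn (fun u => theta m (u / k) * (Gp z a b (Real.log (u * Y)) +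
      κ * Gp z a b (2 * c - Real.log (u * Y)))) (Ioi α) := by
  have hk0 : (0 : ℝ) < k := by exact_mod_cast Nat.pos_of_ne_zero hk
  have h1 := int_fold m (κ := κ) hY (show 0 < α / k by positivity) z c (Real.log k) a b
  have h2 := (integrableOn_Ioi_comp_mul_left_iff (fun u : ℝ => theta m (u / k) *
    (Gp z a b (Real.log (u * Y)) + κ * Gp z a b (2 * c - Real.log (u * Y)))) (α / k) hk0)
  rw [show (k : ℝ) * (α / k) = α by field_simp] at h2
  rw [← h2]
  refine h1.congr_fun (fun u hu => ?_) measurableSet_Ioi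
  have hu0 : 0 < u := lt_trans (by positivity : (0 : ℝ) < α / k) hu
  have hY0 : (0 : ℝ) < Y := by exact_mod_cast (by omega : 0 < Y)
  simp only
  have e1 : (k : ℝ) * u / k = u := by field_simp
  have e2 : Real.log (k * u * Y) = Real.log (u * Y) + Real.log k := by
    rw [show (k : ℝ) * u * Y = (u * Y) * k by ring, Real.log_mul (by positivity) hk0.ne']
  rw [e1, e2]

end Asm
end P004G
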