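import Vale.Agent.P004G.H503.AsmC

/-!
# P004G, assembly, part D: the pointwise inequality and its sum over `m`
-/

open Real MeasureTheory Set
open scoped ENNReal

namespace P004G
namespace Asm

open P004.Asm (ηf_nonneg ηf_le_one ηf_zero ηf_one ηf_cont wj_pos Gp_abs_le fold_le)

section norms

variable [Crv]

omit [Crv] in
/-- the `ℓ²` norm over the block -/
noncomputable def nY (Y : ℕ) (f : ℤ → ℝ) : ℝ := √(∑ m ∈ sqZ Y, f m ^ 2)

lemma nY_nonneg (Y : ℕ) (f : ℤ → ℝ) : 0 ≤ nY Y f := Real.sqrt_nonneg _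

lemma nY_le {Y : ℕ} {f : ℤ → ℝ} {B : ℝ} (h : ∑ m ∈ sqZ Y, f m ^ 2 ≤ B) : nY Y f ≤ √B :=
  Real.sqrt_le_sqrt h

lemma sum_le_nY {Y : ℕ} {S : Finset ℤ} (hS : S ⊆ sqZ Y) (f : ℤ → ℝ) :
    ∑ m ∈ S, |f m| ≤ √(S.card : ℝ) * nY Y f := by
  have h1 := Real.sum_mul_le_sqrt_mul_sqrt S (fun _ => (1 : ℝ)) (fun m => |f m|)
  simp only [one_mul, one_pow, Finset.sum_const, nsmul_eq_mul, mul_one, sq_abs] at h1
  refine h1.trans (mul_le_mul_of_nonneg_left ?_ (Real.sqrt_nonneg _))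
  exact Real.sqrt_le_sqrt (Finset.sum_le_sum_of_subset_of_nonneg hS fun _ _ _ => sq_nonneg _)

lemma sum_mul_le_nY {Y : ℕ} {S : Finset ℤ} (hS : S ⊆ sqZ Y) (f g : ℤ → ℝ) :
    ∑ m ∈ S, |f m| * |g m| ≤ nY Y f * nY Y g := by
  have h1 := Real.sum_mul_le_sqrt_mul_sqrt S (fun m => |f m|) (fun m => |g m|)
  simp only [sq_abs] at h1
  refine h1.trans (mul_le_mul ?_ ?_ (Real.sqrt_nonneg _) (nY_nonneg _ _))
  · exact Real.sqrt_le_sqrt (Finset.sum_le_sum_of_subset_of_nonneg hS fun _ _ _ => sq_nonneg _)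
  · exact Real.sqrt_le_sqrt (Finset.sum_le_sum_of_subset_of_nonneg hS fun _ _ _ => sq_nonneg _)

lemma card_sqZ (Y : ℕ) : ((sqZ Y).card : ℝ) ≤ 2 * Y := by
  have h := sum_sqZ (M := ℕ) Y (fun _ => 1)
  rw [Finset.sum_const, smul_eq_mul, mul_one] at h
  rw [h]
  simp only [Finset.sum_const, smul_eq_mul]
  have h2 : (sqf Y).card ≤ Y := by
    unfold P004.sqf
    refine (Finset.card_filter_le _ _).trans ?_
    simp
  have : (sqf Y).card * (1 + 1) ≤ 2 * Y := by omega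
  exact_mod_cast this

end norms

/-- the weights of the Taylor expansion -/
noncomputable def wl (T z : ℝ) (l : ℕ) : ℝ := (2 * T * z) ^ l / (l.factorial : ℝ)

lemma wl_nonneg {T z : ℝ} (hT : 0 ≤ T) (hz : 0 ≤ z) (l : ℕ) : 0 ≤ wl T z l := by
  unfold wl; positivity

lemma coef_le {z c T : ℝ} (hz : 0 ≤ z) (hc : |c| ≤ T) (l : ℕ) :
    |(2 * c * z) ^ l / (l.factorial : ℝ)| ≤ wl T z l := by
  unfold wl
  rw [abs_div, Nat.abs_cast, abs_pow]
  refine div_le_div_of_nonneg_right ?_ (by positivity)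
  refine pow_le_pow_left₀ (abs_nonneg _) ?_ l
  rw [abs_mul, abs_mul, abs_of_nonneg hz]
  refine mul_le_mul_of_nonneg_right ?_ hz
  rw [abs_of_pos (by norm_num : (0 : ℝ) < 2)]
  linarith

variable [Crv]

/-- the error terms for one `m` and one shift `s` -/
noncomputable def Er (Y J : ℕ) (m : ℤ) (α c s T z κ : ℝ) (a b : ℕ) (M Mr : ℕ → ℤ → ℝ) : ℝ :=
  |M 0 m * Fw Y (fun x => psi Y x * (Gp z a b (x + s) - Real.exp (z * (x + s)))) m| +
  ∑ l ∈ Finset.range b, wl T z l *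
    |M 0 m * Fw Y (fun x => psi Y x * Gp z (a - l) (b - l) (-(x + s))) m| +
  ∑ j ∈ Finset.range J,
    (|M (j + 1) m * Fw Y (fun x => Wn Y j x * Gp z a b (x + s)) m| * |Mr (j + 1) m| +
    ∑ l ∈ Finset.range b, wl T z l *
      (|M (j + 1) m * Fw Y (fun x => Wn Y j x * Gp z (a - l) (b - l) (-(x + s))) m| *
        |Mr (j + 1) m|)) +
  |M 0 m| * |Tin Y J m α c s z κ a b| + |M 0 m| * |Tout Y m α c s z κ a b|

/-- the inequality for one dilate -/
lemma one_dilate (m : ℤ) {κ : ℝ} (hκ : κ = 1 ∨ κ = -1) {Y : ℕ} (hY : 3 ≤ Y) {α c s T : ℝ}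
    (hα0 : 0 < α) (hα : Real.log (α * Y) = c - s) (hc : |c| ≤ T) {z : ℝ} (hz : 0 ≤ z) (a b J : ℕ)
    (hJ : c - s < wj Y J) {M Mr : ℕ → ℤ → ℝ} (hM : ∀ j < J, M 0 m = M (j + 1) m * Mr (j + 1) m) :
    |M 0 m * ((∫ u in Ioi α, theta m u * (Gp z a b (Real.log (u * Y) + s) +
      κ * Gp z a b (2 * c - (Real.log (u * Y) + s)))) -
      Real.exp (z * s) * Fw Y (fun x => psi Y x * Real.exp (z * x)) m)| ≤
      Er Y J m α c s T z κ a b M Mr := by
  rw [folded_split m hY hα0 z c s a b J (by rw [hα]; exact hJ), psi_split m hY hz s a b]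
  unfold Er
  set t := M 0 m with ht
  set Fe := Fw Y (fun x => psi Y x * Real.exp (z * x)) m
  set Fp := Fw Y (fun x => psi Y x * (Gp z a b (x + s) - Real.exp (z * (x + s)))) m
  set Bp : ℕ → ℝ := fun l => Fw Y (fun x => psi Y x * Gp z (a - l) (b - l) (-(x + s))) m with hBp
  set Aj : ℕ → ℝ := fun j => Fw Y (fun x => Wn Y j x * Gp z a b (x + s)) m with hAj
  set Bj : ℕ → ℕ → ℝ := fun j l =>
    Fw Y (fun x => Wn Y j x * Gp z (a - l) (b - l) (-(x + s))) m with hBj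
  set co : ℕ → ℝ := fun l => (2 * c * z) ^ l / (l.factorial : ℝ) with hco
  set Ti := Tin Y J m α c s z κ a b
  set To := Tout Y m α c s z κ a b
  have hk : |κ| = 1 := by rcases hκ with h | h <;> rw [h] <;> simp
  have hcol : ∀ l, |co l| ≤ wl T z l := fun l => coef_le hz hc l
  have hB : ∀ (s : ℝ) (G : ℕ → ℝ), |s * (κ * ∑ l ∈ Finset.range b, co l * G l)| ≤
      ∑ l ∈ Finset.range b, wl T z l * |s * G l| := by
    intro s G
    rw [abs_mul, abs_mul, hk, one_mul, ← abs_mul, Finset.mul_sum]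
    refine (Finset.abs_sum_le_sum_abs _ _).trans (Finset.sum_le_sum fun l _ => ?_)
    have e : s * (co l * G l) = co l * (s * G l) := by ring
    rw [e, abs_mul]
    exact mul_le_mul_of_nonneg_right (hcol l) (abs_nonneg _)
  have e1 : t * (Ti + ∑ j ∈ Finset.range J, (Aj j + κ * ∑ l ∈ Finset.range b, co l * Bj j l) +
      (Real.exp (z * s) * Fe + Fp + κ * ∑ l ∈ Finset.range b, co l * Bp l) + To -
        Real.exp (z * s) * Fe) =
      t * Fp + t * (κ * ∑ l ∈ Finset.range b, co l * Bp l) +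
      ∑ j ∈ Finset.range J, t * (Aj j + κ * ∑ l ∈ Finset.range b, co l * Bj j l) +
      t * Ti + t * To := by
    rw [← Finset.mul_sum]
    ring
  change |t * (Ti + ∑ j ∈ Finset.range J, (Aj j + κ * ∑ l ∈ Finset.range b, co l * Bj j l) +
      (Real.exp (z * s) * Fe + Fp + κ * ∑ l ∈ Finset.range b, co l * Bp l) + To -
        Real.exp (z * s) * Fe)| ≤ _
  rw [e1]
  have h1 : |t * Fp + t * (κ * ∑ l ∈ Finset.range b, co l * Bp l) +
      ∑ j ∈ Finset.range J, t * (Aj j + κ * ∑ l ∈ Finset.range b, co l * Bj j l) +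
      t * Ti + t * To| ≤ |t * Fp| + |t * (κ * ∑ l ∈ Finset.range b, co l * Bp l)| +
      ∑ j ∈ Finset.range J, |t * (Aj j + κ * ∑ l ∈ Finset.range b, co l * Bj j l)| +
      |t * Ti| + |t * To| := by
    refine (abs_add_le _ _).trans (add_le_add ?_ le_rfl)
    refine (abs_add_le _ _).trans (add_le_add ?_ le_rfl)
    refine (abs_add_le _ _).trans (add_le_add ?_ (Finset.abs_sum_le_sum_abs _ _))
    exact abs_add_le _ _
  refine h1.trans ?_
  have h2 : |t * (κ * ∑ l ∈ Finset.range b, co l * Bp l)| ≤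
      ∑ l ∈ Finset.range b, wl T z l * |t * Bp l| := hB t Bp
  have h3 : ∀ j ∈ Finset.range J, |t * (Aj j + κ * ∑ l ∈ Finset.range b, co l * Bj j l)| ≤
      |M (j + 1) m * Aj j| * |Mr (j + 1) m| + ∑ l ∈ Finset.range b, wl T z l *
        (|M (j + 1) m * Bj j l| * |Mr (j + 1) m|) := by
    intro j hj
    have hMj := hM j (Finset.mem_range.1 hj)
    rw [mul_add]
    refine (abs_add_le _ _).trans (add_le_add ?_ ?_)
    · rw [hMj, ← abs_mul]
      apply le_of_eq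
      congr 1
      ring
    · refine (hB t (Bj j)).trans (le_of_eq ?_)
      refine Finset.sum_congr rfl fun l _ => ?_
      rw [hMj, ← abs_mul]
      congr 2
      ring
  have h4 := Finset.sum_le_sum h3
  rw [abs_mul t Ti, abs_mul t To]
  linarith

/-- the pointwise inequality -/
lemma pointwise (m : ℤ) {κ q : ℝ} (hκ : κ = 1 ∨ κ = -1) (hq : 0 < q) {Y : ℕ} (hY : 3 ≤ Y)
    {T : ℝ} (hc : |Real.log (Y / √q)| ≤ T) {z : ℝ} (hz : 0 ≤ z) (hz1 : z ≤ 1) (a b J : ℕ)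
    {K₀ : ℕ} (hTJ : T < wj Y J)
    {bb : ℕ → ℝ} {B₀ c₀ : ℝ} (hB₀ : 1 ≤ B₀) (hbb : ∀ k, |bb k| ≤ B₀)
    (hP : c₀ ≤ |∑ k ∈ K₀.divisors, bb k * (k : ℝ) ^ (1 + z)|)
    (hid : ∫ u in Ioi (1 / √q), (∑ k ∈ K₀.divisors, bb k * theta m (u / k)) *
      (Gp z a b (Real.log (u * Y)) +
      κ * Gp z a b (2 * Real.log (Y / √q) - Real.log (u * Y))) = 0)
    {M Mr : ℕ → ℤ → ℝ} (hM : ∀ j < J, M 0 m = M (j + 1) m * Mr (j + 1) m) {cM : ℝ}
    (hcM : 0 ≤ cM) :
    c₀ * cM ≤ ∑ k ∈ K₀.divisors, (B₀ * (K₀ : ℝ) ^ 2) *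
      (|M 0 m * Fw Y (fun x => psi Y x * Real.exp (z * x)) m - cM| +
        Er Y J m (1 / √q / k) (Real.log (Y / √q)) (Real.log k) T z κ a b M Mr) := by
  have hY0 : (0 : ℝ) < Y := by exact_mod_cast (by omega : 0 < Y)
  have hsq : 0 < √q := Real.sqrt_pos.2 hq
  set c := Real.log (Y / √q) with hcdef
  set Fe := Fw Y (fun x => psi Y x * Real.exp (z * x)) m with hFe
  set t := M 0 m with ht
  have hkpos : ∀ k ∈ K₀.divisors, (0 : ℝ) < k := fun k hk => by
    exact_mod_cast Nat.pos_of_mem_divisors hk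
  have hkle : ∀ k ∈ K₀.divisors, (k : ℝ) ≤ K₀ := fun k hk => by
    exact_mod_cast Nat.divisor_le hk
  have hk1 : ∀ k ∈ K₀.divisors, (1 : ℝ) ≤ k := fun k hk => by
    exact_mod_cast Nat.pos_of_mem_divisors hk
  set Fo : ℕ → ℝ := fun k => ∫ u in Ioi (1 / √q / k), theta m u *
    (Gp z a b (Real.log (u * Y) + Real.log k) +
      κ * Gp z a b (2 * c - (Real.log (u * Y) + Real.log k))) with hFo
  have hα : 0 < 1 / √q := by positivity
  have hsum : ∑ k ∈ K₀.divisors, bb k * (k * Fo k) = 0 := by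
    rw [← hid]
    have e1 : ∀ u ∈ Ioi (1 / √q), (∑ k ∈ K₀.divisors, bb k * theta m (u / k)) *
        (Gp z a b (Real.log (u * Y)) + κ * Gp z a b (2 * c - Real.log (u * Y))) =
        ∑ k ∈ K₀.divisors, bb k * (theta m (u / k) * (Gp z a b (Real.log (u * Y)) +
          κ * Gp z a b (2 * c - Real.log (u * Y)))) := by
      intro u _
      rw [Finset.sum_mul]
      refine Finset.sum_congr rfl fun k _ => ?_
      ring
    rw [setIntegral_congr_fun measurableSet_Ioi e1, integral_finsetSum]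
    · refine Finset.sum_congr rfl fun k hk => ?_
      rw [integral_const_mul, dilate m hY hα z c a b (Nat.pos_of_mem_divisors hk).ne']
    · intro k hk
      exact (int_dilate m hY hα z c a b (Nat.pos_of_mem_divisors hk).ne').const_mul _
  have hone : ∀ k ∈ K₀.divisors, |t * (Fo k - (k : ℝ) ^ z * Fe)| ≤
      Er Y J m (1 / √q / k) c (Real.log k) T z κ a b M Mr := by
    intro k hk
    have hk0 := hkpos k hk
    have hlog : Real.log (1 / √q / k * Y) = c - Real.log k := by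
      rw [hcdef, ← Real.log_div (by positivity) hk0.ne']
      congr 1
      field_simp
    have hlk : 0 ≤ Real.log (k : ℝ) := Real.log_natCast_nonneg k
    have h1 := one_dilate m hκ hY (by positivity : 0 < 1 / √q / k) hlog hc hz a b J
      (by linarith [(abs_le.1 hc).2]) hM
    rw [show (k : ℝ) ^ z = Real.exp (z * Real.log k) by
      rw [Real.rpow_def_of_pos hk0]; congr 1; ring]
    exact h1
  set PP := ∑ k ∈ K₀.divisors, bb k * (k : ℝ) ^ (1 + z) with hPP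
  have hcoef : ∀ k ∈ K₀.divisors, |bb k * (k : ℝ)| ≤ B₀ * (K₀ : ℝ) ^ 2 ∧
      |bb k * (k : ℝ) ^ (1 + z)| ≤ B₀ * (K₀ : ℝ) ^ 2 := by
    intro k hk
    have h1 := hk1 k hk
    have h2 := hkle k hk
    have h3 : (k : ℝ) ^ (1 + z) ≤ (K₀ : ℝ) ^ 2 := by
      calc (k : ℝ) ^ (1 + z) ≤ (k : ℝ) ^ (2 : ℝ) :=
            Real.rpow_le_rpow_of_exponent_le h1 (by linarith)
        _ = (k : ℝ) ^ 2 := by rw [← Real.rpow_natCast]; norm_num
        _ ≤ _ := by gcongr
    have h4 : (k : ℝ) ≤ (K₀ : ℝ) ^ 2 := by nlinarith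
    constructor
    · rw [abs_mul, abs_of_nonneg (by linarith : (0 : ℝ) ≤ k)]
      exact mul_le_mul (hbb k) h4 (by linarith) (by linarith)
    · rw [abs_mul, abs_of_nonneg (by positivity : (0 : ℝ) ≤ (k : ℝ) ^ (1 + z))]
      exact mul_le_mul (hbb k) h3 (by positivity) (by linarith)
  have hmain : PP * cM = PP * (cM - t * Fe) -
      ∑ k ∈ K₀.divisors, (bb k * k) * (t * (Fo k - (k : ℝ) ^ z * Fe)) := by
    have e2 : ∑ k ∈ K₀.divisors, (bb k * k) * (t * (Fo k - (k : ℝ) ^ z * Fe)) =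
        t * (∑ k ∈ K₀.divisors, bb k * (k * Fo k)) - t * (PP * Fe) := by
      rw [hPP, Finset.mul_sum, Finset.sum_mul, Finset.mul_sum, ← Finset.sum_sub_distrib]
      refine Finset.sum_congr rfl fun k hk => ?_
      have hk0 := hkpos k hk
      rw [Real.rpow_add hk0, Real.rpow_one]
      ring
    rw [e2, hsum]
    ring
  have h5 : c₀ * cM ≤ |PP * cM| := by
    rw [abs_mul, abs_of_nonneg hcM]
    exact mul_le_mul_of_nonneg_right hP hcM
  refine h5.trans ?_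
  rw [hmain]
  have h6 : |PP * (cM - t * Fe)| ≤ ∑ k ∈ K₀.divisors, (B₀ * (K₀ : ℝ) ^ 2) * |t * Fe - cM| := by
    rw [abs_mul, abs_sub_comm cM, ← Finset.sum_mul]
    refine mul_le_mul_of_nonneg_right ?_ (abs_nonneg _)
    exact (Finset.abs_sum_le_sum_abs _ _).trans (Finset.sum_le_sum fun k hk => (hcoef k hk).2)
  have h7 : |∑ k ∈ K₀.divisors, (bb k * k) * (t * (Fo k - (k : ℝ) ^ z * Fe))| ≤
      ∑ k ∈ K₀.divisors, (B₀ * (K₀ : ℝ) ^ 2) *
        Er Y J m (1 / √q / k) c (Real.log k) T z κ a b M Mr := by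
    refine (Finset.abs_sum_le_sum_abs _ _).trans (Finset.sum_le_sum fun k hk => ?_)
    rw [abs_mul]
    exact mul_le_mul (hcoef k hk).1 (hone k hk) (abs_nonneg _) (by positivity)
  calc |PP * (cM - t * Fe) - ∑ k ∈ K₀.divisors, (bb k * k) * (t * (Fo k - (k : ℝ) ^ z * Fe))| ≤
        |PP * (cM - t * Fe)| +
          |∑ k ∈ K₀.divisors, (bb k * k) * (t * (Fo k - (k : ℝ) ^ z * Fe))| := abs_sub _ _
    _ ≤ _ := add_le_add h6 h7
    _ = _ := by rw [← Finset.sum_add_distrib]; exact Finset.sum_congr rfl fun k _ => by ring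

end Asm
end P004G
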