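import Vale.Agent.P004G.H503.Theta
import Vale.Agent.P004.H503.AsmG

/-!
# P004G, assembly, part A: integrability, and the functional of a reflected window
-/

open Real MeasureTheory Set
open scoped ENNReal

namespace P004G
namespace Asm

open P004.Asm (ηf_nonneg ηf_le_one ηf_zero ηf_one ηf_cont wj_pos wj_succ Wn_cont psi_cont Wn_abs_le
  psi_abs_le Wn_supp psi_supp partition Pol Pol_eval Pol_degree Gp_reflect Gp_abs_le meas_log
  int_bdd)

variable [Crv]

/-- polynomials in the logarithm grow slowly -/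
lemma growth_Gp {α : ℝ} (hα : 0 < α) {Y : ℕ} (hY : 3 ≤ Y) (z α' β : ℝ) (a b : ℕ) :
    ∃ B : ℝ, ∀ u, α ≤ u → |Gp z a b (α' * Real.log (u * Y) + β)| ≤ B * Real.exp u := by
  have hY0 : (0 : ℝ) < Y := by exact_mod_cast (by omega : 0 < Y)
  obtain ⟨D, hD0, hD⟩ : ∃ D : ℝ, 0 ≤ D ∧ ∀ u, α ≤ u →
      |z * (α' * Real.log (u * Y) + β)| ≤ D * u := by
    refine ⟨|z| * (|α'| * (Y + 1 / (α ^ 2 * Y)) + |β| / α), by positivity, fun u hu => ?_⟩
    have hu0 : 0 < u := lt_of_lt_of_le hα hu
    have h1 : |Real.log (u * Y)| ≤ u * Y + 1 / (u * Y) := by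
      have ht : 0 < u * Y := by positivity
      rw [abs_le]
      constructor
      · have h2 := Real.log_le_sub_one_of_pos (inv_pos.2 ht)
        rw [Real.log_inv] at h2
        have h3 : (u * Y)⁻¹ = 1 / (u * Y) := by rw [one_div]
        rw [h3] at h2
        linarith
      · have h2 := Real.log_le_sub_one_of_pos ht
        have h3 : 0 < 1 / (u * Y) := by positivity
        linarith
    have h2 : 1 / (u * Y) ≤ u * (1 / (α ^ 2 * Y)) := by
      rw [div_le_iff₀ (by positivity)]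
      have e : u * (1 / (α ^ 2 * Y)) * (u * Y) = (u / α) ^ 2 := by field_simp
      rw [e]
      have h3 : 1 ≤ u / α := by rw [le_div_iff₀ hα]; linarith
      nlinarith
    have h3 : |β| ≤ |β| / α * u := by
      rw [div_mul_eq_mul_div, le_div_iff₀ hα]
      exact mul_le_mul_of_nonneg_left hu (abs_nonneg _)
    calc |z * (α' * Real.log (u * Y) + β)| ≤ |z| * (|α'| * |Real.log (u * Y)| + |β|) := by
          rw [abs_mul]
          refine mul_le_mul_of_nonneg_left ((abs_add_le _ _).trans ?_) (abs_nonneg _)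
          rw [abs_mul]
      _ ≤ |z| * (|α'| * (u * Y + u * (1 / (α ^ 2 * Y))) + |β| / α * u) := by
          gcongr
          exact h1.trans (by linarith)
      _ = _ := by ring
  refine ⟨(b : ℝ) * ((1 + D) ^ b * (b.factorial : ℝ) * Real.exp 1), fun u hu => ?_⟩
  have hu0 : 0 < u := lt_of_lt_of_le hα hu
  have h1 := hD u hu
  obtain ⟨x, hx⟩ : ∃ x : ℝ, x = α' * Real.log (u * Y) + β := ⟨_, rfl⟩
  rw [← hx] at h1 ⊢
  have h2 : |Gp z a b x| ≤ ∑ i ∈ Finset.Ico a b, (1 + D * u) ^ b := by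
    unfold P004.Gp
    refine (Finset.abs_sum_le_sum_abs _ _).trans (Finset.sum_le_sum fun i hi => ?_)
    rw [abs_div, abs_pow, Nat.abs_cast]
    have hi' := (Finset.mem_Ico.1 hi).2
    have h3 : |z * x| ≤ 1 + D * u := by linarith
    calc |z * x| ^ i / (i.factorial : ℝ) ≤ |z * x| ^ i := by
          apply div_le_self (by positivity)
          exact_mod_cast Nat.factorial_pos i
      _ ≤ (1 + D * u) ^ i := pow_le_pow_left₀ (abs_nonneg _) h3 i
      _ ≤ (1 + D * u) ^ b := by
          apply pow_le_pow_right₀ _ hi'.le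
          have : 0 ≤ D * u := by positivity
          linarith
  refine h2.trans ?_
  rw [Finset.sum_const, nsmul_eq_mul, Nat.card_Ico]
  have h4 : ((b - a : ℕ) : ℝ) ≤ b := by exact_mod_cast Nat.sub_le b a
  have h5 : (1 + D * u) ^ b ≤ (1 + D) ^ b * (b.factorial : ℝ) * Real.exp 1 * Real.exp u := by
    have h6 := Real.pow_div_factorial_le_exp (1 + u) (by positivity) b
    rw [div_le_iff₀ (by positivity), Real.exp_add] at h6
    calc (1 + D * u) ^ b ≤ ((1 + D) * (1 + u)) ^ b := by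
          gcongr
          nlinarith
      _ = (1 + D) ^ b * (1 + u) ^ b := by rw [mul_pow]
      _ ≤ (1 + D) ^ b * (Real.exp 1 * Real.exp u * (b.factorial : ℝ)) := by gcongr
      _ = _ := by ring
  calc ((b - a : ℕ) : ℝ) * (1 + D * u) ^ b ≤
        b * ((1 + D) ^ b * (b.factorial : ℝ) * Real.exp 1 * Real.exp u) := by gcongr
    _ = _ := by ring

lemma int_Gp (m : ℤ) {α : ℝ} (hα : 0 < α) {Y : ℕ} (hY : 3 ≤ Y) (z α' β : ℝ) (a b : ℕ) :
    IntegrableOn (fun u => theta m u * Gp z a b (α' * Real.log (u * Y) + β)) (Ioi α) := by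
  obtain ⟨B, hB⟩ := growth_Gp hα hY z α' β a b
  refine Th.integrable_of_growth m hα ?_ hB
  have h1 : Continuous (fun x : ℝ => Gp z a b (α' * x + β)) := by
    unfold P004.Gp
    fun_prop
  exact meas_log h1 Y

/-- windows bounded away from `x = -∞` -/
lemma int_win (m : ℤ) {Y : ℕ} (hY : 3 ≤ Y) (z α' β : ℝ) (a b : ℕ) {W : ℝ → ℝ}
    (hW : Continuous W) (hW1 : ∀ x, |W x| ≤ 1) {x₁ : ℝ} (hx₁ : ∀ x, W x ≠ 0 → x₁ ≤ x) :
    IntegrableOn (fun u => theta m u * (W (Real.log (u * Y)) *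
      Gp z a b (α' * Real.log (u * Y) + β))) (Ioi 0) := by
  have hY0 : (0 : ℝ) < Y := by exact_mod_cast (by omega : 0 < Y)
  set α := Real.exp x₁ / (2 * Y) with hα
  have hα0 : 0 < α := by positivity
  rw [(Ioc_union_Ioi_eq_Ioi hα0.le).symm]
  refine IntegrableOn.union ?_ ?_
  · refine (integrableOn_zero (s := Ioc 0 α)).congr_fun (fun u hu => ?_) measurableSet_Ioc
    have hu0 : 0 < u := hu.1
    have h1 : W (Real.log (u * Y)) = 0 := by
      by_contra hne
      have h2 := hx₁ _ hne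
      rw [Real.le_log_iff_exp_le (by positivity)] at h2
      have h3 : u * Y ≤ Real.exp x₁ / 2 := by
        calc u * Y ≤ α * Y := mul_le_mul_of_nonneg_right hu.2 hY0.le
          _ = _ := by rw [hα]; field_simp
      linarith [Real.exp_pos x₁]
    simp [h1]
  · have h1 := int_bdd (int_Gp m hα0 hY z α' β a b) (meas_log hW Y) (fun u => hW1 _)
    refine h1.congr_fun (fun u _ => ?_) measurableSet_Ioi
    simp only
    ring

/-- the functional of a reflected window, expanded -/
lemma Fw_refl (m : ℤ) {Y : ℕ} (hY : 3 ≤ Y) (z c s : ℝ) (a b : ℕ) {W : ℝ → ℝ}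
    (hW : Continuous W) (hW1 : ∀ x, |W x| ≤ 1) {x₁ : ℝ} (hx₁ : ∀ x, W x ≠ 0 → x₁ ≤ x) :
    Fw Y (fun x => W x * Gp z a b (2 * c - (x + s))) m =
      ∑ l ∈ Finset.range b, (2 * c * z) ^ l / (l.factorial : ℝ) *
        Fw Y (fun x => W x * Gp z (a - l) (b - l) (-(x + s))) m := by
  unfold Fw Fn P004.cfY
  simp_rw [← integral_const_mul]
  rw [← integral_finsetSum]
  · refine setIntegral_congr_fun measurableSet_Ioi fun u _ => ?_
    rw [Gp_reflect, Finset.mul_sum, Finset.mul_sum]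
    refine Finset.sum_congr rfl fun l _ => ?_
    ring
  · intro l _
    have h := (int_win m hY z (-1) (-s) (a - l) (b - l) hW hW1 hx₁).const_mul
      ((2 * c * z) ^ l / (l.factorial : ℝ))
    refine IntegrableOn.congr_fun h (fun u _ => ?_) measurableSet_Ioi
    congr 4
    ring

/-- a window supported in `x > log(α Y)` does not see the fold -/
lemma window_full {Y : ℕ} (hY : 3 ≤ Y) {α : ℝ} (hα : 0 < α) {W : ℝ → ℝ}
    (hW : ∀ x, W x ≠ 0 → Real.log (α * Y) < x) (f : ℝ → ℝ) :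
    ∫ u in Ioi α, f u * W (Real.log (u * Y)) =
      ∫ u in Ioi (0 : ℝ), f u * W (Real.log (u * Y)) := by
  have h0 : (0 : ℝ) < Y := by exact_mod_cast (by omega : 0 < Y)
  symm
  refine setIntegral_eq_of_subset_of_forall_sdiff_eq_zero measurableSet_Ioi
    (Ioi_subset_Ioi hα.le) ?_
  intro u hu
  have hu0 : (0 : ℝ) < u := hu.1
  have hu1 : u ≤ α := not_lt.1 hu.2
  have h3 : W (Real.log (u * Y)) = 0 := by
    by_contra hne
    have h4 := hW _ hne
    have h5 : Real.log (u * Y) ≤ Real.log (α * Y) :=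
      Real.log_le_log (by positivity) (mul_le_mul_of_nonneg_right hu1 h0.le)
    linarith
  rw [h3, mul_zero]

/-- one window of the folded integral -/
lemma window_eq (m : ℤ) {κ : ℝ} {Y : ℕ} (hY : 3 ≤ Y) {α : ℝ} (hα : 0 < α) (z c s : ℝ) (a b : ℕ)
    {W : ℝ → ℝ} (hWc : Continuous W) (hW1 : ∀ x, |W x| ≤ 1)
    (hW : ∀ x, W x ≠ 0 → Real.log (α * Y) < x) :
    ∫ u in Ioi α, theta m u * (Gp z a b (Real.log (u * Y) + s) +
      κ * Gp z a b (2 * c - (Real.log (u * Y) + s))) * W (Real.log (u * Y)) =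
    Fw Y (fun x => W x * Gp z a b (x + s)) m +
      κ * ∑ l ∈ Finset.range b, (2 * c * z) ^ l / (l.factorial : ℝ) *
        Fw Y (fun x => W x * Gp z (a - l) (b - l) (-(x + s))) m := by
  have hx₁ : ∀ x, W x ≠ 0 → Real.log (α * Y) ≤ x := fun x hx => (hW x hx).le
  rw [window_full hY hα hW, ← Fw_refl m hY z c s a b hWc hW1 hx₁]
  unfold Fw Fn P004.cfY
  rw [← integral_const_mul, ← integral_add]
  · refine setIntegral_congr_fun measurableSet_Ioi fun u _ => ?_
    simp only
    ring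
  · have h := int_win m hY z 1 s a b hWc hW1 hx₁
    refine IntegrableOn.congr_fun h (fun u _ => ?_) measurableSet_Ioi
    simp only
    rw [one_mul]
  · have h := (int_win m hY z (-1) (2 * c - s) a b hWc hW1 hx₁).const_mul κ
    refine IntegrableOn.congr_fun h (fun u _ => ?_) measurableSet_Ioi
    simp only
    congr 4
    ring

end Asm
end P004G
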