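import Vale.Agent.P004G.H503.AsmD

/-!
# P004G, assembly, part D2: the summed inequality
-/

open Real MeasureTheory Set
open scoped ENNReal

namespace P004G
namespace Asm

open P004.Asm (wj_pos)

variable [Crv]

/-- the bound for the error terms with shift `s` -/
noncomputable def Rs (Y J : ℕ) (s T z : ℝ) (a b : ℕ) (M Mr : ℕ → ℤ → ℝ) (N SJ cM : ℝ) : ℝ :=
  √N * (nY Y (fun m => M 0 m * Fw Y (fun x => psi Y x * Real.exp (z * x)) m - cM) +
    nY Y (fun m => M 0 m *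
      Fw Y (fun x => psi Y x * (Gp z a b (x + s) - Real.exp (z * (x + s)))) m) +
    ∑ l ∈ Finset.range b, wl T z l *
      nY Y (fun m => M 0 m * Fw Y (fun x => psi Y x * Gp z (a - l) (b - l) (-(x + s))) m)) +
  ∑ j ∈ Finset.range J,
    (nY Y (fun m => M (j + 1) m * Fw Y (fun x => Wn Y j x * Gp z a b (x + s)) m) *
      nY Y (Mr (j + 1)) +
    ∑ l ∈ Finset.range b, wl T z l *
      (nY Y (fun m => M (j + 1) m *
        Fw Y (fun x => Wn Y j x * Gp z (a - l) (b - l) (-(x + s))) m) * nY Y (Mr (j + 1)))) +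
  nY Y (M 0) * (2 * ((z * (2 * wj Y J + 3 * T)) ^ a * Real.exp (z * (2 * wj Y J + 3 * T))) *
    √(SJ * (2 * wj Y J + 3 * T))) +
  nY Y (M 0) * (2 * Th.C0 * (a.factorial : ℝ) * Real.exp (3 * T) *
    (Y * Real.exp (-√(Y : ℝ))) * √(2 * (Y : ℝ)))

/-- the sum of the errors with a fixed shift -/
lemma sum_Er {Y : ℕ} (hY : 3 ≤ Y) {T z : ℝ} (hT : 0 ≤ T) (hz : 0 ≤ z) (hz2 : z ≤ 1 / 2)
    (a b J : ℕ) {s : ℝ} (hs0 : 0 ≤ s) (hs : s ≤ T) (hTJ : T < wj Y J) {S : Finset ℤ}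
    (hS : S ⊆ sqZ Y) (hfin : ∀ m ∈ S, Jz m ≠ ⊤) {α c κ : ℤ → ℝ}
    (hκ : ∀ m ∈ S, κ m = 1 ∨ κ m = -1) (hα0 : ∀ m ∈ S, 0 < α m)
    (hα : ∀ m ∈ S, Real.log (α m * Y) = c m - s) (hc : ∀ m ∈ S, |c m| ≤ T)
    {M Mr : ℕ → ℤ → ℝ} (cM : ℝ) :
    ∑ m ∈ S, (|M 0 m * Fw Y (fun x => psi Y x * Real.exp (z * x)) m - cM| +
      Er Y J m (α m) (c m) s T z (κ m) a b M Mr) ≤
      Rs Y J s T z a b M Mr S.card (∑ m ∈ sqZ Y, (Jz m).toReal) cM := by
  set T1 := 2 * ((z * (2 * wj Y J + 3 * T)) ^ a * Real.exp (z * (2 * wj Y J + 3 * T))) with hT1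
  set T2 := 2 * Th.C0 * (a.factorial : ℝ) * Real.exp (3 * T) *
    (Y * Real.exp (-√(Y : ℝ))) with hT2
  have hw := wj_pos hY J
  have hT10 : 0 ≤ T1 := by positivity
  have hT20 : 0 ≤ T2 := by
    have := Th.C0_nonneg
    positivity
  have key : ∀ m ∈ S, |M 0 m * Fw Y (fun x => psi Y x * Real.exp (z * x)) m - cM| +
      Er Y J m (α m) (c m) s T z (κ m) a b M Mr ≤
      |M 0 m * Fw Y (fun x => psi Y x * Real.exp (z * x)) m - cM| +
      (|M 0 m * Fw Y (fun x => psi Y x * (Gp z a b (x + s) - Real.exp (z * (x + s)))) m| +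
      ∑ l ∈ Finset.range b, wl T z l *
        |M 0 m * Fw Y (fun x => psi Y x * Gp z (a - l) (b - l) (-(x + s))) m| +
      ∑ j ∈ Finset.range J,
        (|M (j + 1) m * Fw Y (fun x => Wn Y j x * Gp z a b (x + s)) m| * |Mr (j + 1) m| +
        ∑ l ∈ Finset.range b, wl T z l *
          (|M (j + 1) m * Fw Y (fun x => Wn Y j x * Gp z (a - l) (b - l) (-(x + s))) m| *
            |Mr (j + 1) m|)) +
      |M 0 m| * |T1 * √((Jz m).toReal * (2 * wj Y J + 3 * T))| + |M 0 m| * |T2|) := by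
    intro m hm
    unfold Er
    have h2 := Tin_le (hfin m hm) (hκ m hm) hY (hα0 m hm) (hα m hm) (hc m hm) hs0 hs hz a b J
      (by linarith [(abs_le.1 (hc m hm)).2])
    have h3 := Tout_le (m := m) (hκ m hm) hY (hα0 m hm) (hc m hm) hs0 hs hz hz2 a b
    have h4 : |T1 * √((Jz m).toReal * (2 * wj Y J + 3 * T))| =
        T1 * √((Jz m).toReal * (2 * wj Y J + 3 * T)) := abs_of_nonneg (by positivity)
    rw [h4, abs_of_nonneg hT20]
    have h5 := abs_nonneg (M 0 m)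
    have h6 := mul_le_mul_of_nonneg_left h2 h5
    have h7 := mul_le_mul_of_nonneg_left h3 h5
    linarith
  refine (Finset.sum_le_sum key).trans ?_
  unfold Rs
  simp only [Finset.sum_add_distrib]
  have b1 := sum_le_nY hS (fun m => M 0 m * Fw Y (fun x => psi Y x * Real.exp (z * x)) m - cM)
  have b2 := sum_le_nY hS
    (fun m => M 0 m * Fw Y (fun x => psi Y x * (Gp z a b (x + s) - Real.exp (z * (x + s)))) m)
  have b3 : ∑ m ∈ S, ∑ l ∈ Finset.range b, wl T z l *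
        |M 0 m * Fw Y (fun x => psi Y x * Gp z (a - l) (b - l) (-(x + s))) m| ≤
      √(S.card : ℝ) * ∑ l ∈ Finset.range b, wl T z l *
        nY Y (fun m => M 0 m *
          Fw Y (fun x => psi Y x * Gp z (a - l) (b - l) (-(x + s))) m) := by
    rw [Finset.sum_comm, Finset.mul_sum]
    refine Finset.sum_le_sum fun l _ => ?_
    rw [← Finset.mul_sum]
    have := sum_le_nY hS
      (fun m => M 0 m * Fw Y (fun x => psi Y x * Gp z (a - l) (b - l) (-(x + s))) m)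
    calc _ ≤ wl T z l * (√(S.card : ℝ) * nY Y
          (fun m => M 0 m * Fw Y (fun x => psi Y x * Gp z (a - l) (b - l) (-(x + s))) m)) :=
          mul_le_mul_of_nonneg_left this (wl_nonneg hT hz l)
      _ = _ := by ring
  have b4 : ∑ m ∈ S, ∑ j ∈ Finset.range J,
      |M (j + 1) m * Fw Y (fun x => Wn Y j x * Gp z a b (x + s)) m| * |Mr (j + 1) m| ≤
      ∑ j ∈ Finset.range J,
        nY Y (fun m => M (j + 1) m * Fw Y (fun x => Wn Y j x * Gp z a b (x + s)) m) *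
          nY Y (Mr (j + 1)) := by
    rw [Finset.sum_comm]
    refine Finset.sum_le_sum fun j _ => ?_
    exact sum_mul_le_nY hS _ _
  have b5 : ∑ m ∈ S, ∑ j ∈ Finset.range J, ∑ l ∈ Finset.range b, wl T z l *
          (|M (j + 1) m * Fw Y (fun x => Wn Y j x * Gp z (a - l) (b - l) (-(x + s))) m| *
            |Mr (j + 1) m|) ≤
      ∑ j ∈ Finset.range J, ∑ l ∈ Finset.range b, wl T z l *
          (nY Y (fun m => M (j + 1) m *
            Fw Y (fun x => Wn Y j x * Gp z (a - l) (b - l) (-(x + s))) m) *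
              nY Y (Mr (j + 1))) := by
    rw [Finset.sum_comm]
    refine Finset.sum_le_sum fun j _ => ?_
    rw [Finset.sum_comm]
    refine Finset.sum_le_sum fun l _ => ?_
    rw [← Finset.mul_sum]
    exact mul_le_mul_of_nonneg_left (sum_mul_le_nY hS _ _) (wl_nonneg hT hz l)
  have b6 := sum_mul_le_nY hS (M 0) (fun m => T1 * √((Jz m).toReal * (2 * wj Y J + 3 * T)))
  have b6' : nY Y (fun m => T1 * √((Jz m).toReal * (2 * wj Y J + 3 * T))) ≤
      T1 * √((∑ m ∈ sqZ Y, (Jz m).toReal) * (2 * wj Y J + 3 * T)) := by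
    unfold nY
    apply Real.sqrt_le_iff.2
    refine ⟨by positivity, ?_⟩
    rw [mul_pow, Real.sq_sqrt (by positivity), Finset.sum_mul, Finset.mul_sum]
    apply le_of_eq
    refine Finset.sum_congr rfl fun m _ => ?_
    rw [mul_pow, Real.sq_sqrt (by positivity)]
  have b7 := sum_mul_le_nY hS (M 0) (fun _ => T2)
  have b7' : nY Y (fun _ => T2) ≤ T2 * √(2 * (Y : ℝ)) := by
    unfold nY
    apply Real.sqrt_le_iff.2
    refine ⟨by positivity, ?_⟩
    rw [mul_pow, Real.sq_sqrt (by positivity), Finset.sum_const, nsmul_eq_mul, mul_comm]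
    exact mul_le_mul_of_nonneg_left (card_sqZ Y) (by positivity)
  have hn := nY_nonneg Y (M 0)
  have b6'' := mul_le_mul_of_nonneg_left b6' hn
  have b7'' := mul_le_mul_of_nonneg_left b7' hn
  linarith

/-- the summed inequality -/
lemma summed {Y : ℕ} (hY : 3 ≤ Y) {T z : ℝ} (hT : 0 ≤ T) (hz : 0 ≤ z) (hz2 : z ≤ 1 / 2)
    (a b J : ℕ) {K₀ : ℕ} (hKT : Real.log K₀ ≤ T) (hTJ : T < wj Y J) {B₀ c₀ : ℝ}
    (hB₀ : 1 ≤ B₀) {S : Finset ℤ} (hS : S ⊆ sqZ Y) (hfin : ∀ m ∈ S, Jz m ≠ ⊤)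
    (hdat : ∀ m ∈ S, ∃ (κ q : ℝ) (bb : ℕ → ℝ), (κ = 1 ∨ κ = -1) ∧ 0 < q ∧
      |Real.log (Y / √q)| ≤ T ∧ (∀ k, |bb k| ≤ B₀) ∧
      c₀ ≤ |∑ k ∈ K₀.divisors, bb k * (k : ℝ) ^ (1 + z)| ∧
      ∫ u in Ioi (1 / √q), (∑ k ∈ K₀.divisors, bb k * theta m (u / k)) *
        (Gp z a b (Real.log (u * Y)) +
        κ * Gp z a b (2 * Real.log (Y / √q) - Real.log (u * Y))) = 0)
    {M Mr : ℕ → ℤ → ℝ} (hM : ∀ m, ∀ j < J, M 0 m = M (j + 1) m * Mr (j + 1) m) {cM : ℝ}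
    (hcM : 0 ≤ cM) :
    (S.card : ℝ) * (c₀ * cM) ≤ ∑ k ∈ K₀.divisors, (B₀ * (K₀ : ℝ) ^ 2) *
      Rs Y J (Real.log k) T z a b M Mr S.card (∑ m ∈ sqZ Y, (Jz m).toReal) cM := by
  classical
  have hY0 : (0 : ℝ) < Y := by exact_mod_cast (by omega : 0 < Y)
  choose! κ q bb hd using hdat
  have h1 : ∀ m ∈ S, c₀ * cM ≤ ∑ k ∈ K₀.divisors, (B₀ * (K₀ : ℝ) ^ 2) *
      (|M 0 m * Fw Y (fun x => psi Y x * Real.exp (z * x)) m - cM| +
        Er Y J m (1 / √(q m) / k) (Real.log (Y / √(q m))) (Real.log k) T z (κ m) a b M Mr) := by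
    intro m hm
    obtain ⟨g1, g2, g3, g4, g5, g6⟩ := hd m hm
    exact pointwise m g1 g2 hY g3 hz (by linarith) a b J hTJ hB₀ g4 g5 g6 (hM m) hcM
  have h2 := Finset.sum_le_sum h1
  rw [Finset.sum_const, nsmul_eq_mul] at h2
  refine h2.trans ?_
  rw [Finset.sum_comm]
  refine Finset.sum_le_sum fun k hk => ?_
  rw [← Finset.mul_sum]
  refine mul_le_mul_of_nonneg_left ?_ (by positivity)
  have hk0 : (0 : ℝ) < k := by exact_mod_cast Nat.pos_of_mem_divisors hk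
  have hkK : Real.log (k : ℝ) ≤ T :=
    (Real.log_le_log hk0 (by exact_mod_cast Nat.divisor_le hk)).trans hKT
  refine sum_Er hY hT hz hz2 a b J (Real.log_natCast_nonneg k) hkK hTJ hS hfin
    (α := fun m => 1 / √(q m) / k) (c := fun m => Real.log (Y / √(q m))) (κ := κ)
    (fun m hm => (hd m hm).1) (fun m hm => ?_) (fun m hm => ?_)
    (fun m hm => (hd m hm).2.2.1) cM
  · have := Real.sqrt_pos.2 (hd m hm).2.1
    positivity
  · have := Real.sqrt_pos.2 (hd m hm).2.1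
    rw [← Real.log_div (by positivity) hk0.ne']
    congr 1
    field_simp

end Asm
end P004G
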