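import Vale.Agent.P004G.H503.AsmD2

/-!
# P004G, assembly, part F: the norms of the windows
-/

open Real MeasureTheory Set
open scoped ENNReal

namespace P004G
namespace Asm

open P004.Asm (wj_pos Wn_supp psi_supp Gp_contDiff sum_inv_fact sum_windows)

lemma poly_exp (D : ℕ) : ∃ C : ℝ, 1 ≤ C ∧ ∀ K : ℝ, 0 ≤ K →
    (1 + 4 * K) ^ D ≤ C * Real.exp (K / 4) := by
  refine ⟨16 ^ D * D.factorial * Real.exp (1 / 16), ?_, fun K hK => ?_⟩
  · have h1 : (1 : ℝ) ≤ 16 ^ D := one_le_pow₀ (by norm_num)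
    have h2 : (1 : ℝ) ≤ D.factorial := by exact_mod_cast Nat.factorial_pos D
    have h3 : (1 : ℝ) ≤ Real.exp (1 / 16) := Real.one_le_exp (by norm_num)
    calc (1 : ℝ) = 1 * 1 * 1 := by norm_num
      _ ≤ _ := by gcongr
  · have h := Real.pow_div_factorial_le_exp ((1 + 4 * K) / 16) (by positivity) D
    rw [div_le_iff₀ (by positivity), div_pow, div_le_iff₀ (by positivity)] at h
    have e : Real.exp ((1 + 4 * K) / 16) = Real.exp (1 / 16) * Real.exp (K / 4) := by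
      rw [← Real.exp_add]; congr 1; ring
    rw [e] at h
    calc (1 + 4 * K) ^ D ≤ _ := h
      _ = _ := by ring

/-- weights against the outer bounds -/
lemma wl_outer {T z K Co : ℝ} {a b n l : ℕ} (hT : 0 ≤ T) (hz : 0 ≤ z) (hz6 : 2 * T * z ≤ 1 / 3)
    (hK : 1 ≤ K) (hCo : 1 ≤ Co) (hb : (b : ℝ) = 40 * K) (hl : l < b) (β : ℝ)
    (h1 : 20 * K ≤ ((b - l : ℕ) : ℝ) → β ≤ Co * (1 + 4 * K) ^ (a - l + n))
    (h2 : ¬ 20 * K ≤ ((b - l : ℕ) : ℝ) → β ≤ Co * (1 + 4 * K) ^ n * Real.exp (3 * K)) :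
    wl T z l * β ≤ Co * (1 + 4 * K) ^ (a + n) * (1 ^ l / (l.factorial : ℝ)) := by
  have hw := wl_nonneg hT hz l
  have hTz : 0 ≤ 2 * T * z := by positivity
  have hK3 : 1 ≤ 1 + 4 * K := by linarith
  by_cases h : 20 * K ≤ ((b - l : ℕ) : ℝ)
  · have h3 : wl T z l ≤ 1 ^ l / (l.factorial : ℝ) := by
      unfold wl
      gcongr
      linarith
    have h4 : β ≤ Co * (1 + 4 * K) ^ (a + n) := by
      refine (h1 h).trans ?_
      gcongr
      · omega
    calc wl T z l * β ≤ wl T z l * (Co * (1 + 4 * K) ^ (a + n)) := by gcongr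
      _ ≤ (1 ^ l / (l.factorial : ℝ)) * (Co * (1 + 4 * K) ^ (a + n)) := by gcongr
      _ = _ := by ring
  · have h2 := h2 h
    push Not at h
    rw [Nat.cast_sub hl.le, hb] at h
    have hl2 : 20 * K < l := by linarith
    have h3 : wl T z l ≤ Real.exp (-(l : ℝ)) * (1 ^ l / (l.factorial : ℝ)) := by
      unfold wl
      have e1 : Real.exp (-(l : ℝ)) = Real.exp (-1) ^ l := by
        rw [← Real.exp_nat_mul]; congr 1; ring
      rw [e1, one_pow, mul_one_div]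
      gcongr
      have h6 : (0.367 : ℝ) ≤ Real.exp (-1) := by
        have := Real.exp_one_lt_d9
        rw [Real.exp_neg, ← one_div, le_div_iff₀ (Real.exp_pos _)]
        linarith
      linarith
    have h4 : Real.exp (-(l : ℝ)) * Real.exp (3 * K) ≤ 1 := by
      rw [← Real.exp_add, Real.exp_le_one_iff]
      linarith
    have h5 : (1 + 4 * K) ^ n ≤ (1 + 4 * K) ^ (a + n) := pow_le_pow_right₀ hK3 (by omega)
    calc wl T z l * β ≤ wl T z l * (Co * (1 + 4 * K) ^ n * Real.exp (3 * K)) := by gcongr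
      _ ≤ (Real.exp (-(l : ℝ)) * (1 ^ l / (l.factorial : ℝ))) *
          (Co * (1 + 4 * K) ^ n * Real.exp (3 * K)) := by gcongr
      _ = (Real.exp (-(l : ℝ)) * Real.exp (3 * K)) * (Co * (1 + 4 * K) ^ n *
          (1 ^ l / (l.factorial : ℝ))) := by ring
      _ ≤ 1 * (Co * (1 + 4 * K) ^ (a + n) * (1 ^ l / (l.factorial : ℝ))) := by gcongr
      _ = _ := one_mul _

/-- weights against the near bounds -/
lemma wl_near {T z q : ℝ} (a l : ℕ) (hT : 0 ≤ T) (hz : 0 ≤ z) (hz1 : z ≤ 1) (hzq : z ≤ q) :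
    wl T z l * q ^ (a - l) ≤ q ^ a * ((2 * T) ^ l / (l.factorial : ℝ)) := by
  have hq : 0 ≤ q := hz.trans hzq
  have h1 : z ^ l * q ^ (a - l) ≤ q ^ a := by
    by_cases h : l ≤ a
    · calc z ^ l * q ^ (a - l) ≤ q ^ l * q ^ (a - l) := by gcongr
        _ = q ^ a := by rw [← pow_add]; congr 1; omega
    · have e : a - l = 0 := by omega
      rw [e, pow_zero, mul_one]
      calc z ^ l ≤ z ^ a := pow_le_pow_of_le_one hz hz1 (by omega)
        _ ≤ q ^ a := by gcongr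
  unfold wl
  rw [mul_pow (2 * T)]
  calc (2 * T) ^ l * z ^ l / (l.factorial : ℝ) * q ^ (a - l) =
        ((2 * T) ^ l / (l.factorial : ℝ)) * (z ^ l * q ^ (a - l)) := by ring
    _ ≤ ((2 * T) ^ l / (l.factorial : ℝ)) * q ^ a := by gcongr
    _ = _ := by ring

variable [Crv]

/-- the window bound in terms of norms -/
def WinHyp (Y n A J : ℕ) (K s : ℝ) (M : ℕ → ℤ → ℝ) : Prop :=
  ∀ (j : ℕ) (h : ℝ → ℝ) (β : ℝ), j ≤ J → ContDiff ℝ n h →
    (∀ x, h x ≠ 0 → wj Y j ≤ x ∧ x ≤ 3 * Real.log Y) → 0 ≤ β →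
    (∀ i ≤ n, ∀ x, |iteratedDeriv i h x| ≤ β * (wj Y j)⁻¹ ^ i) →
    nY Y (fun m => M j m * Fw Y h m) ≤ s * (K * 2 ^ j) ^ A * β

/-- the outer hypothesis at a fixed `Y`, `K`, `σ` (the shift) -/
def OutHyp (Y n : ℕ) (K Co σ : ℝ) : Prop :=
  ∀ (a b : ℕ), ∀ i ≤ n, ∀ x : ℝ,
    (30 * K ≤ b → |iteratedDeriv i (fun x => psi Y x * (Gp (K / Real.log Y) a b (x + σ) -
      Real.exp (K / Real.log Y * (x + σ)))) x| ≤ Co * (1 + 4 * K) ^ (a + n) * (wj Y 0)⁻¹ ^ i) ∧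
    (20 * K ≤ b → |iteratedDeriv i (fun x => psi Y x * Gp (K / Real.log Y) a b (-(x + σ))) x| ≤
      Co * (1 + 4 * K) ^ (a + n) * (wj Y 0)⁻¹ ^ i) ∧
    |iteratedDeriv i (fun x => psi Y x * Gp (K / Real.log Y) a b (-(x + σ))) x| ≤
      Co * (1 + 4 * K) ^ n * Real.exp (3 * K) * (wj Y 0)⁻¹ ^ i

/-- the near hypothesis at a fixed `Y`, `K`, `σ` (the shift), for `j < J` -/
def NearHyp (Y n J : ℕ) (K Cn σ : ℝ) : Prop :=
  ∀ (j a b : ℕ), j < J → ∀ i ≤ n, ∀ x : ℝ,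
    |iteratedDeriv i (fun x => Wn Y j x * Gp (K / Real.log Y) a b (x + σ)) x| ≤
      Cn * K ^ n * (K / 2 ^ j) ^ a * Real.exp (K / 5) * (wj Y (j + 1))⁻¹ ^ i ∧
    |iteratedDeriv i (fun x => Wn Y j x * Gp (K / Real.log Y) a b (-(x + σ))) x| ≤
      Cn * K ^ n * (K / 2 ^ j) ^ a * Real.exp (K / 5) * (wj Y (j + 1))⁻¹ ^ i

lemma Gp_cd (n : ℕ) (z : ℝ) (a b : ℕ) (σ : ℝ) : ContDiff ℝ n (fun x => Gp z a b (x + σ)) :=
  (Gp_contDiff n z a b).comp (contDiff_id.add contDiff_const)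

lemma Gp_cd' (n : ℕ) (z : ℝ) (a b : ℕ) (σ : ℝ) : ContDiff ℝ n (fun x => Gp z a b (-(x + σ))) :=
  (Gp_contDiff n z a b).comp (contDiff_id.add contDiff_const).neg

lemma norm2 (hWf : StWf) {Y n A J : ℕ} {K s Co σ : ℝ} {M : ℕ → ℤ → ℝ} (hY : 3 ≤ Y) (hK1 : 1 ≤ K)
    (hCo : 1 ≤ Co) (hwin : WinHyp Y n A J K s M) (houter : OutHyp Y n K Co σ)
    (a b : ℕ) (hbK : (b : ℝ) = 40 * K) :
    nY Y (fun m => M 0 m * Fw Y (fun x => psi Y x * (Gp (K / Real.log Y) a b (x + σ) -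
      Real.exp (K / Real.log Y * (x + σ)))) m) ≤ s * K ^ A * (Co * (1 + 4 * K) ^ (a + n)) := by
  have hpsic : ContDiff ℝ n (psi Y) := (hWf.smooth Y 0 n hY).2
  have hK0 : 0 ≤ K := by linarith
  have := hwin 0 (fun x => psi Y x * (Gp (K / Real.log Y) a b (x + σ) -
    Real.exp (K / Real.log Y * (x + σ)))) (Co * (1 + 4 * K) ^ (a + n)) (by omega)
    ?_ ?_ (by positivity) ?_
  · simpa using this
  · exact hpsic.mul ((Gp_cd n _ a b σ).sub (by fun_prop))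
  · intro x hx
    exact psi_supp hY (left_ne_zero_of_mul hx)
  · intro i hi x
    exact (houter a b i hi x).1 (by linarith)

lemma norm3 (hWf : StWf) {Y n A J : ℕ} {K s Co σ T : ℝ} {M : ℕ → ℤ → ℝ} (hY : 3 ≤ Y)
    (hT : 0 ≤ T) (hK1 : 1 ≤ K)
    (hCo : 1 ≤ Co) (hs0 : 0 ≤ s) (hwin : WinHyp Y n A J K s M) (houter : OutHyp Y n K Co σ)
    (a b : ℕ) (hbK : (b : ℝ) = 40 * K) (hz0 : 0 ≤ K / Real.log Y)
    (hz6 : 2 * T * (K / Real.log Y) ≤ 1 / 3) :
    ∑ l ∈ Finset.range b, wl T (K / Real.log Y) l *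
        nY Y (fun m => M 0 m * Fw Y (fun x => psi Y x *
          Gp (K / Real.log Y) (a - l) (b - l) (-(x + σ))) m) ≤
      s * K ^ A * (Co * (1 + 4 * K) ^ (a + n)) * Real.exp 1 := by
  have hpsic : ContDiff ℝ n (psi Y) := (hWf.smooth Y 0 n hY).2
  have hK0 : 0 ≤ K := by linarith
  have hterm : ∀ l ∈ Finset.range b, wl T (K / Real.log Y) l *
        nY Y (fun m => M 0 m * Fw Y (fun x => psi Y x *
          Gp (K / Real.log Y) (a - l) (b - l) (-(x + σ))) m) ≤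
        s * K ^ A * (Co * (1 + 4 * K) ^ (a + n)) * (1 ^ l / (l.factorial : ℝ)) := by
    intro l hl
    have hl' := Finset.mem_range.1 hl
    have hw := wl_nonneg hT hz0 l
    have hsupp : ∀ x, psi Y x * Gp (K / Real.log Y) (a - l) (b - l) (-(x + σ)) ≠ 0 →
        wj Y 0 ≤ x ∧ x ≤ 3 * Real.log Y := fun x hx => psi_supp hY (left_ne_zero_of_mul hx)
    have hcd : ContDiff ℝ n (fun x => psi Y x *
        Gp (K / Real.log Y) (a - l) (b - l) (-(x + σ))) :=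
      hpsic.mul (Gp_cd' n _ _ _ σ)
    obtain ⟨β, hβ0, hβ1, hβ2, hβ3⟩ : ∃ β : ℝ, 0 ≤ β ∧
        (20 * K ≤ ((b - l : ℕ) : ℝ) → β ≤ Co * (1 + 4 * K) ^ (a - l + n)) ∧
        (¬ 20 * K ≤ ((b - l : ℕ) : ℝ) → β ≤ Co * (1 + 4 * K) ^ n * Real.exp (3 * K)) ∧
        ∀ i ≤ n, ∀ x, |iteratedDeriv i (fun x => psi Y x *
          Gp (K / Real.log Y) (a - l) (b - l) (-(x + σ))) x| ≤ β * (wj Y 0)⁻¹ ^ i := by
      by_cases h : 20 * K ≤ ((b - l : ℕ) : ℝ)
      · refine ⟨Co * (1 + 4 * K) ^ (a - l + n), by positivity, fun _ => le_rfl,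
          fun h' => absurd h h', fun i hi x => ?_⟩
        exact (houter (a - l) (b - l) i hi x).2.1 h
      · refine ⟨Co * (1 + 4 * K) ^ n * Real.exp (3 * K), by positivity,
          fun h' => absurd h' h, fun _ => le_rfl, fun i hi x => ?_⟩
        exact (houter (a - l) (b - l) i hi x).2.2
    have h1 := hwin 0 (fun x => psi Y x * Gp (K / Real.log Y) (a - l) (b - l) (-(x + σ))) β
      (by omega) hcd hsupp hβ0 hβ3
    rw [pow_zero, mul_one] at h1
    have h2 := wl_outer (b := b) (a := a) (n := n) hT hz0 hz6 hK1 hCo hbK hl' β hβ1 hβ2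
    calc wl T (K / Real.log Y) l * nY Y (fun m => M 0 m *
          Fw Y (fun x => psi Y x * Gp (K / Real.log Y) (a - l) (b - l) (-(x + σ))) m) ≤
          wl T (K / Real.log Y) l * (s * K ^ A * β) := mul_le_mul_of_nonneg_left h1 hw
      _ = s * K ^ A * (wl T (K / Real.log Y) l * β) := by ring
      _ ≤ s * K ^ A * (Co * (1 + 4 * K) ^ (a + n) * (1 ^ l / (l.factorial : ℝ))) :=
          mul_le_mul_of_nonneg_left h2 (by positivity)
      _ = _ := by ring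
  refine (Finset.sum_le_sum hterm).trans ?_
  rw [← Finset.mul_sum]
  exact mul_le_mul_of_nonneg_left (sum_inv_fact 1 zero_le_one b) (by positivity)

lemma norm4 (hWf : StWf) {Y n A J : ℕ} {K s Cn σ T : ℝ} {M Mr : ℕ → ℤ → ℝ} (hY : 3 ≤ Y)
    (hT : 0 ≤ T) (hK1 : 1 ≤ K) (hCn : 1 ≤ Cn) (hs0 : 0 ≤ s) (hwin : WinHyp Y n A J K s M)
    (hMr : ∀ j ≤ J, nY Y (Mr j) ≤ s * (2 ^ j) ^ A) (hnear : NearHyp Y n J K Cn σ)
    (a b : ℕ) (ha : 2 * A + 1 ≤ a) (hz0 : 0 ≤ K / Real.log Y) (hz1 : K / Real.log Y ≤ 1)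
    (hzq : ∀ j < J, K / Real.log Y ≤ K / 2 ^ j) :
    ∑ j ∈ Finset.range J,
        (nY Y (fun m => M (j + 1) m *
            Fw Y (fun x => Wn Y j x * Gp (K / Real.log Y) a b (x + σ)) m) *
          nY Y (Mr (j + 1)) +
        ∑ l ∈ Finset.range b, wl T (K / Real.log Y) l *
          (nY Y (fun m => M (j + 1) m *
            Fw Y (fun x => Wn Y j x * Gp (K / Real.log Y) (a - l) (b - l) (-(x + σ))) m) *
              nY Y (Mr (j + 1)))) ≤
      s * s * Cn * (2 * 4 ^ A) * (1 + Real.exp (2 * T)) *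
        (K ^ (A + n + a) * Real.exp (K / 5)) := by
  have hK0 : 0 ≤ K := by linarith
  have hWnc : ∀ j, ContDiff ℝ n (Wn Y j) := fun j => (hWf.smooth Y j n hY).1
  have hsupp : ∀ j, ∀ g : ℝ → ℝ, ∀ x, Wn Y j x * g x ≠ 0 →
      wj Y (j + 1) ≤ x ∧ x ≤ 3 * Real.log Y := by
    intro j g x hx
    obtain ⟨h1, h2⟩ := Wn_supp hY j (left_ne_zero_of_mul hx)
    refine ⟨h1, h2.trans ?_⟩
    have h0 : (1 : ℝ) < Y := by exact_mod_cast (by omega : 1 < Y)
    have hL := Real.log_pos h0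
    unfold P004.wj
    have h3 : (1 : ℝ) ≤ 2 ^ j := one_le_pow₀ (by norm_num)
    have h4 : Real.log Y / (20 * 2 ^ j) ≤ Real.log Y := by
      apply div_le_self hL.le
      linarith
    linarith
  set E := Real.exp (K / 5) with hE
  have hE0 : 0 < E := Real.exp_pos _
  have key : ∀ j ∈ Finset.range J,
      (nY Y (fun m => M (j + 1) m *
            Fw Y (fun x => Wn Y j x * Gp (K / Real.log Y) a b (x + σ)) m) *
          nY Y (Mr (j + 1)) +
        ∑ l ∈ Finset.range b, wl T (K / Real.log Y) l *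
          (nY Y (fun m => M (j + 1) m *
            Fw Y (fun x => Wn Y j x * Gp (K / Real.log Y) (a - l) (b - l) (-(x + σ))) m) *
              nY Y (Mr (j + 1)))) ≤
      s * s * Cn * (1 + Real.exp (2 * T)) * (K ^ (A + n) * E) *
        (((2 : ℝ) ^ (j + 1)) ^ A * ((2 : ℝ) ^ (j + 1)) ^ A * (K / 2 ^ j) ^ a) := by
    intro j hj
    have hj' := Finset.mem_range.1 hj
    have hr := hMr (j + 1) (by omega)
    have hr0 := nY_nonneg Y (Mr (j + 1))
    have hq0 : 0 ≤ K / 2 ^ j := by positivity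
    have g1 := hwin (j + 1) (fun x => Wn Y j x * Gp (K / Real.log Y) a b (x + σ))
      (Cn * K ^ n * (K / 2 ^ j) ^ a * E) (by omega) ((hWnc j).mul (Gp_cd n _ a b σ))
      (hsupp j _) (by positivity) (fun i hi x => (hnear j a b hj' i hi x).1)
    have g2 : ∀ l, nY Y (fun m => M (j + 1) m *
        Fw Y (fun x => Wn Y j x * Gp (K / Real.log Y) (a - l) (b - l) (-(x + σ))) m) ≤
        s * (K * 2 ^ (j + 1)) ^ A * (Cn * K ^ n * (K / 2 ^ j) ^ (a - l) * E) := fun l =>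
      hwin (j + 1) (fun x => Wn Y j x * Gp (K / Real.log Y) (a - l) (b - l) (-(x + σ)))
      (Cn * K ^ n * (K / 2 ^ j) ^ (a - l) * E) (by omega)
      ((hWnc j).mul (Gp_cd' n _ _ _ σ))
      (hsupp j _) (by positivity) (fun i hi x => (hnear j (a - l) (b - l) hj' i hi x).2)
    have t1 : nY Y (fun m => M (j + 1) m *
        Fw Y (fun x => Wn Y j x * Gp (K / Real.log Y) a b (x + σ)) m) * nY Y (Mr (j + 1)) ≤
        s * s * Cn * (K ^ (A + n) * E) *
        (((2 : ℝ) ^ (j + 1)) ^ A * ((2 : ℝ) ^ (j + 1)) ^ A * (K / 2 ^ j) ^ a) * 1 := by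
      calc _ ≤ (s * (K * 2 ^ (j + 1)) ^ A * (Cn * K ^ n * (K / 2 ^ j) ^ a * E)) *
            (s * (2 ^ (j + 1)) ^ A) := mul_le_mul g1 hr hr0 (by positivity)
        _ = _ := by rw [mul_pow, pow_add K A n]; ring
    have t2 : ∑ l ∈ Finset.range b, wl T (K / Real.log Y) l *
          (nY Y (fun m => M (j + 1) m *
            Fw Y (fun x => Wn Y j x * Gp (K / Real.log Y) (a - l) (b - l) (-(x + σ))) m) *
              nY Y (Mr (j + 1))) ≤ s * s * Cn * (K ^ (A + n) * E) *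
        (((2 : ℝ) ^ (j + 1)) ^ A * ((2 : ℝ) ^ (j + 1)) ^ A * (K / 2 ^ j) ^ a) *
          Real.exp (2 * T) := by
      have t3 : ∀ l ∈ Finset.range b, wl T (K / Real.log Y) l *
          (nY Y (fun m => M (j + 1) m *
            Fw Y (fun x => Wn Y j x * Gp (K / Real.log Y) (a - l) (b - l) (-(x + σ))) m) *
              nY Y (Mr (j + 1))) ≤ s * s * Cn * (K ^ (A + n) * E) *
        (((2 : ℝ) ^ (j + 1)) ^ A * ((2 : ℝ) ^ (j + 1)) ^ A * (K / 2 ^ j) ^ a) *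
          ((2 * T) ^ l / (l.factorial : ℝ)) := by
        intro l _
        have hw := wl_nonneg hT hz0 l
        have h3 := wl_near (q := K / 2 ^ j) a l hT hz0 hz1 (hzq j hj')
        calc _ ≤ wl T (K / Real.log Y) l * ((s * (K * 2 ^ (j + 1)) ^ A *
              (Cn * K ^ n * (K / 2 ^ j) ^ (a - l) * E)) * (s * (2 ^ (j + 1)) ^ A)) :=
              mul_le_mul_of_nonneg_left (mul_le_mul (g2 l) hr hr0 (by positivity)) hw
          _ = s * s * Cn * (K ^ (A + n) * E) * (((2 : ℝ) ^ (j + 1)) ^ A *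
              ((2 : ℝ) ^ (j + 1)) ^ A) * (wl T (K / Real.log Y) l * (K / 2 ^ j) ^ (a - l)) := by
              rw [mul_pow, pow_add K A n]; ring
          _ ≤ s * s * Cn * (K ^ (A + n) * E) * (((2 : ℝ) ^ (j + 1)) ^ A *
              ((2 : ℝ) ^ (j + 1)) ^ A) * ((K / 2 ^ j) ^ a * ((2 * T) ^ l / (l.factorial : ℝ))) :=
              mul_le_mul_of_nonneg_left h3 (by positivity)
          _ = _ := by ring
      refine (Finset.sum_le_sum t3).trans ?_
      rw [← Finset.mul_sum]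
      exact mul_le_mul_of_nonneg_left (sum_inv_fact (2 * T) (by positivity) b) (by positivity)
    calc _ ≤ _ := add_le_add t1 t2
      _ = _ := by ring
  refine (Finset.sum_le_sum key).trans ?_
  rw [← Finset.mul_sum]
  have hw := sum_windows A a J ha hK0
  calc _ ≤ s * s * Cn * (1 + Real.exp (2 * T)) * (K ^ (A + n) * E) * (2 * 4 ^ A * K ^ a) :=
        mul_le_mul_of_nonneg_left hw (by positivity)
    _ = _ := by rw [pow_add K (A + n) a]; ring

end Asm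
end P004G
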