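import Vale.Agent.P004G.H503.AsmF

/-!
# P004G, assembly, part G: the numerical conclusion
-/

open Real MeasureTheory Set
open scoped ENNReal

namespace P004G
namespace Asm

open P004.Asm (quad gather sqrt_bound sqrt_bound')

/-- the inner scale -/
lemma inner_scale {L K T : ℝ} {J : ℕ} (hL : 100 ≤ L) (hT : 0 ≤ T) (hTL : 20 * T + 1 ≤ √L)
    (hK : 0 ≤ K) (hK8 : K ≤ L ^ (1 / 8 : ℝ)) (hJ1 : (2 : ℝ) ^ J ≤ L ^ (1 / 4 : ℝ))
    (hJ : L ^ (1 / 4 : ℝ) < 2 ^ (J + 1)) :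
    K / L * (2 * (L / (20 * 2 ^ J)) + 3 * T) ≤ L ^ (-(1 / 8) : ℝ) ∧
      2 * (L / (20 * 2 ^ J)) + 3 * T ≤ L ∧ T < L / (20 * 2 ^ J) := by
  have hL0 : 0 < L := by linarith
  have h4 : 0 < L ^ (1 / 4 : ℝ) := by positivity
  have h2J : L ^ (1 / 4 : ℝ) / 2 ≤ 2 ^ J := by
    rw [pow_succ] at hJ; linarith
  have e : L / L ^ (1 / 4 : ℝ) = L ^ (3 / 4 : ℝ) := by
    rw [div_eq_iff h4.ne', ← Real.rpow_add hL0]; norm_num
  have h6 : 20 * T + 1 ≤ L ^ (3 / 4 : ℝ) := by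
    rw [Real.sqrt_eq_rpow] at hTL
    exact hTL.trans (Real.rpow_le_rpow_of_exponent_le (by linarith) (by norm_num))
  have h1 : 2 * (L / (20 * 2 ^ J)) ≤ L / L ^ (1 / 4 : ℝ) * (1 / 5) := by
    have : 2 * (L / (20 * 2 ^ J)) = L / 2 ^ J * (1 / 10) := by field_simp; ring
    rw [this]
    calc L / 2 ^ J * (1 / 10) ≤ L / (L ^ (1 / 4 : ℝ) / 2) * (1 / 10) := by gcongr
      _ = _ := by field_simp; ring
  have h3 : 3 * T ≤ L / L ^ (1 / 4 : ℝ) * (4 / 5) := by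
    rw [e]; linarith
  have h7 : 2 * (L / (20 * 2 ^ J)) + 3 * T ≤ L / L ^ (1 / 4 : ℝ) := by linarith
  refine ⟨?_, ?_, ?_⟩
  · calc K / L * (2 * (L / (20 * 2 ^ J)) + 3 * T) ≤ K / L * (L / L ^ (1 / 4 : ℝ)) := by gcongr
      _ = K / L ^ (1 / 4 : ℝ) := by field_simp
      _ ≤ L ^ (1 / 8 : ℝ) / L ^ (1 / 4 : ℝ) := by gcongr
      _ = L ^ (-(1 / 8) : ℝ) := by
        rw [← Real.rpow_sub hL0]; norm_num
  · refine h7.trans ?_
    apply div_le_self hL0.le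
    exact Real.one_le_rpow (by linarith) (by norm_num)
  · have h8 : L ^ (3 / 4 : ℝ) / 20 ≤ L / (20 * 2 ^ J) := by
      rw [← e, div_div, mul_comm (L ^ (1 / 4 : ℝ))]
      gcongr
    linarith

/-- the conclusion, in terms of real numbers -/
lemma conclude {N Y K Cm cm c₁ c₃ Co Cn P κ₃ LB cM E₂ : ℝ} (A a n : ℕ) (hN : 0 ≤ N) (hY : 0 < Y)
    (hK : 1 ≤ K) (hCm : 0 ≤ Cm) (hc₁ : 0 < c₁) (hCo : 0 ≤ Co) (hCn : 0 ≤ Cn) (hP : 0 ≤ P)
    (hκ₃ : 0 ≤ κ₃) (hLB : 0 ≤ LB) (hE₂ : 0 ≤ E₂) (hcM : c₁ * Real.exp K ≤ cM)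
    (hc₃0 : 0 ≤ c₃) (hc₃m : c₃ ≤ cm / 2) (hc₃ : c₃ ≤ 1 / 2)
    (hpoly : ∀ D ≤ A + n + a, (1 + 4 * K) ^ D ≤ P * Real.exp (K / 4))
    (h : N * cM ≤ √N * (√(Cm * Y) * Real.exp (K - cm / 2 * √K) +
      √(Cm * Y) * K ^ A * (Co * (1 + 4 * K) ^ (a + n)) +
      √(Cm * Y) * K ^ A * (Co * (1 + 4 * K) ^ (a + n)) * Real.exp 1) +
      √(Cm * Y) * √(Cm * Y) * Cn * (2 * 4 ^ A) * (1 + E₂) *
        (K ^ (A + n + a) * Real.exp (K / 5)) + κ₃ * (Y * LB)) :
    N ≤ ((√Cm * (1 + Co * P * (1 + Real.exp 1))) ^ 2 / c₁ ^ 2 +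
      2 * (Cm * Cn * (2 * 4 ^ A) * (1 + E₂) * P + κ₃) / c₁) * Y *
        (Real.exp (-c₃ * √K) + LB) := by
  have hK0 : 0 ≤ K := by linarith
  have hsK : √K ≤ K := by
    rw [Real.sqrt_le_left hK0]; nlinarith
  have hsK0 := Real.sqrt_nonneg K
  set X := Real.exp (-c₃ * √K) with hX
  have hX0 : 0 < X := Real.exp_pos _
  have hX1 : X ≤ 1 := by
    rw [hX, Real.exp_le_one_iff]; nlinarith
  have hEK := Real.exp_pos K
  -- exponentials against `X e^K`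
  have e1 : Real.exp (K - cm / 2 * √K) ≤ Real.exp K * X := by
    rw [hX, ← Real.exp_add, Real.exp_le_exp]; nlinarith
  have e2 : Real.exp (K / 4) ≤ Real.exp K * X := by
    rw [hX, ← Real.exp_add, Real.exp_le_exp]; nlinarith
  have e3 : Real.exp (K / 4) * Real.exp (K / 5) ≤ Real.exp K * X := by
    rw [hX, ← Real.exp_add, ← Real.exp_add, Real.exp_le_exp]; nlinarith
  have hKD : ∀ D, K ^ D ≤ (1 + 4 * K) ^ D := fun D => pow_le_pow_left₀ hK0 (by linarith) D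
  have p1 : K ^ A * (Co * (1 + 4 * K) ^ (a + n)) ≤ Co * P * (Real.exp K * X) := by
    calc K ^ A * (Co * (1 + 4 * K) ^ (a + n)) ≤
          (1 + 4 * K) ^ A * (Co * (1 + 4 * K) ^ (a + n)) :=
          mul_le_mul_of_nonneg_right (hKD A) (by positivity)
      _ = Co * (1 + 4 * K) ^ (A + n + a) := by
          rw [show A + n + a = A + (a + n) by ring, pow_add (1 + 4 * K) A]; ring
      _ ≤ Co * (P * Real.exp (K / 4)) := by gcongr; exact hpoly _ le_rfl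
      _ ≤ Co * (P * (Real.exp K * X)) := by gcongr
      _ = _ := by ring
  have p2 : K ^ (A + n + a) * Real.exp (K / 5) ≤ P * (Real.exp K * X) := by
    calc K ^ (A + n + a) * Real.exp (K / 5) ≤ (P * Real.exp (K / 4)) * Real.exp (K / 5) := by
          gcongr
          exact (hKD _).trans (hpoly _ le_rfl)
      _ = P * (Real.exp (K / 4) * Real.exp (K / 5)) := by ring
      _ ≤ _ := by gcongr
  set s := √(Cm * Y) with hs
  have hs0 : 0 ≤ s := Real.sqrt_nonneg _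
  have hss : s * s = Cm * Y := Real.mul_self_sqrt (by positivity)
  have hs' : s = √Cm * √Y := by rw [hs, Real.sqrt_mul hCm]
  set α := √Cm * (1 + Co * P * (1 + Real.exp 1)) with hα
  have hα0 : 0 ≤ α := by positivity
  set β := Cm * Cn * (2 * 4 ^ A) * (1 + E₂) * P with hβ
  have hβ0 : 0 ≤ β := by positivity
  -- the simplified inequality
  have h1 : N * (c₁ * Real.exp K) ≤ √N * (√Y * (α * (Real.exp K * X))) +
      (Y * (β * (Real.exp K * X)) + κ₃ * (Y * LB)) := by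
    have q1 : s * Real.exp (K - cm / 2 * √K) + s * K ^ A * (Co * (1 + 4 * K) ^ (a + n)) +
        s * K ^ A * (Co * (1 + 4 * K) ^ (a + n)) * Real.exp 1 ≤
        √Y * (α * (Real.exp K * X)) := by
      calc _ = s * (Real.exp (K - cm / 2 * √K) + (K ^ A * (Co * (1 + 4 * K) ^ (a + n))) *
            (1 + Real.exp 1)) := by ring
        _ ≤ s * (Real.exp K * X + (Co * P * (Real.exp K * X)) * (1 + Real.exp 1)) := by
            gcongr
        _ = _ := by rw [hs', hα]; ring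
    have q2 : s * s * Cn * (2 * 4 ^ A) * (1 + E₂) *
        (K ^ (A + n + a) * Real.exp (K / 5)) ≤ Y * (β * (Real.exp K * X)) := by
      rw [hss]
      calc _ ≤ Cm * Y * Cn * (2 * 4 ^ A) * (1 + E₂) * (P * (Real.exp K * X)) := by
            gcongr
        _ = _ := by rw [hβ]; ring
    have q3 : N * (c₁ * Real.exp K) ≤ N * cM := mul_le_mul_of_nonneg_left hcM hN
    have q4 := mul_le_mul_of_nonneg_left q1 (Real.sqrt_nonneg N)
    linarith
  -- divide by `Y e^K`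
  set ρ := N / Y with hρ
  have hρ0 : 0 ≤ ρ := by positivity
  have hNρ : N = ρ * Y := by rw [hρ]; field_simp
  have h2 : ρ * c₁ ≤ √ρ * (α * X) + (β * X + κ₃ * LB) := by
    have e4 : √N = √ρ * √Y := by rw [hNρ, Real.sqrt_mul hρ0]
    rw [e4, hNρ] at h1
    have h3 : ρ * c₁ * (Y * Real.exp K) ≤ (√ρ * (α * X) + (β * X + κ₃ * LB)) *
        (Y * Real.exp K) := by
      have e5 : √ρ * √Y * (√Y * (α * (Real.exp K * X))) =
          √ρ * (α * X) * (Y * Real.exp K) := by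
        have : √Y * √Y = Y := Real.mul_self_sqrt hY.le
        calc _ = √ρ * (α * X) * ((√Y * √Y) * Real.exp K) := by ring
          _ = _ := by rw [this]
      have e6 : κ₃ * (Y * LB) ≤ κ₃ * LB * (Y * Real.exp K) := by
        have : 1 ≤ Real.exp K := Real.one_le_exp hK0
        have h7 : 0 ≤ κ₃ * (Y * LB) := by positivity
        calc κ₃ * (Y * LB) ≤ κ₃ * (Y * LB) * Real.exp K := le_mul_of_one_le_right h7 this
          _ = _ := by ring
      linarith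
    exact le_of_mul_le_mul_right h3 (by positivity)
  have h4 := quad hρ0 hc₁ h2
  have h5 := gather (κ₃ := κ₃) (LB := LB) hα0 hβ0 hκ₃ hLB hX0.le hX1 hc₁
  calc N = ρ * Y := hNρ
    _ ≤ ((α ^ 2 / c₁ ^ 2 + 2 * (β + κ₃) / c₁) * (X + LB)) * Y := by
        gcongr
        exact h4.trans h5
    _ = _ := by ring

end Asm
end P004G
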