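import Vale.Agent.P004G.ML
import Vale.Agent.P004.L3
import Vale.Agent.P004.H628.Equiv

/-!
# P004G: the final statement for `E : y² = x³ + a x + b` and its proof from the modules
-/

open Real MeasureTheory Set Filter
open scoped ENNReal Topology

namespace P004G

open ML
open P004 (IsFund Fam)

/-! ### definitions of the final statement -/

/-- `L` is the entire continuation of the `L`-function of `E^(D) : D y² = x³ + a x + b`, i.e. of
`y² = x³ + a D² x + b D³`: its Dirichlet series (Mathlib's `WeierstrassCurve.LFunction`) converges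
to `L s` for `Re s > 3/2` -/
def IsLT (a b D : ℤ) (L : ℂ → ℂ) : Prop :=
  Differentiable ℂ L ∧ ∀ s : ℂ, 3 / 2 < s.re →
    LSeriesHasSum (fun n => ((Ec (a * D ^ 2) (b * D ^ 3)).LFunction n : ℂ)) s (L s)

open scoped Classical in
/-- the analytic rank of `E^(D)` -/
noncomputable def aRk (a b D : ℤ) : ℕ :=
  if h : ∃ L, IsLT a b D L then analyticOrderNatAt h.choose 1 else 0

/-- the functional equation of the `L`-function of `y² = x³ + a x + b`: for
`f y = ∑ a_n e^{-2π n y}`, `f (1 / (N y)) = κ N y² f y` -/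
def FEt (a b : ℤ) (N κ : ℝ) : Prop :=
  ∀ y : ℝ, 0 < y → ∑' n : ℕ, (LA a b n : ℝ) * Real.exp (-2 * π * n * (1 / (N * y))) =
    κ * N * y ^ 2 * ∑' n : ℕ, (LA a b n : ℝ) * Real.exp (-2 * π * n * y)

/-- Hasse's bound and the functional equation for the twists of `y² = x³ + a x + b` -/
structure Modl (a b : ℤ) : Prop where
  hasse : ∀ D : ℤ, Fund1 D → ∀ p : ℕ, p.Prime → (LA (a * D ^ 2) (b * D ^ 3) p) ^ 2 ≤ 4 * p
  fe : ∃ C : ℝ, 1 ≤ C ∧ ∀ D : ℤ, Fund1 D → ∃ N κ : ℝ, 0 < N ∧ (κ = 1 ∨ κ = -1) ∧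
    (D : ℝ) ^ 2 / C ≤ N ∧ N ≤ C * (D : ℝ) ^ 2 ∧ FEt (a * D ^ 2) (b * D ^ 3) N κ

open scoped Classical in
/-- tail and moments -/
def TailMom (a b : ℤ) : Prop :=
  (∀ D : ℤ, IsFund D → ∃ L, IsLT a b D L ∧ (∀ L', IsLT a b D L' → L' = L) ∧
    analyticOrderAt L 1 = (aRk a b D : ℕ∞)) ∧
  (∃ c : ℝ, 0 < c ∧ ∀ B : ℕ, ∃ C : ℝ, 0 < C ∧ ∀ X : ℕ, 3 ≤ X → ∀ z : ℝ, 0 ≤ z →
    (((Fam X).filter (fun D => z ≤ (aRk a b D : ℝ))).card : ℝ) ≤
      C * ((Fam X).card : ℝ) * (Real.exp (-c * √z) + Real.log X ^ (-(B : ℝ)))) ∧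
  (∀ k : ℕ, ∃ C : ℝ, 0 < C ∧ ∀ X : ℕ, 3 ≤ X →
    ∑ D ∈ Fam X, (aRk a b D : ℝ) ^ k ≤ C * ((Fam X).card : ℝ))

open scoped Classical in
/-- the analytic rank is odd for one half of the twists -/
def OddHalf (a b : ℤ) : Prop :=
  Tendsto (fun X : ℕ => (((Fam X).filter (fun D => Odd (aRk a b D))).card : ℝ) / (Fam X).card)
    atTop (𝓝 (1 / 2))

open scoped Classical in
/-- the density form of Goldfeld's conjecture for `y² = x³ + a x + b` -/
def DensForm (a b : ℤ) : Prop :=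
  ∀ j : ℕ, j ≤ 1 → Tendsto (fun X : ℕ =>
    (((Fam X).filter (fun D => aRk a b D = j)).card : ℝ) / (Fam X).card) atTop (𝓝 (1 / 2))

/-- the mean form of Goldfeld's conjecture for `y² = x³ + a x + b`, for the `k`-th moment -/
def MeanForm (a b : ℤ) (k : ℕ) : Prop :=
  Tendsto (fun X : ℕ => (∑ D ∈ Fam X, (aRk a b D : ℝ) ^ k) / (Fam X).card) atTop (𝓝 (1 / 2))

open scoped Classical in
/-- the equivalences -/
def Equivs (a b : ℤ) (k : ℕ) : Prop :=
  (Tendsto (fun X : ℕ => (((Fam X).filter (fun D => aRk a b D = 0)).card : ℝ) / (Fam X).card)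
      atTop (𝓝 (1 / 2)) ↔
    Tendsto (fun X : ℕ => (∑ D ∈ (Fam X).filter (fun D => Even (aRk a b D)),
      (aRk a b D : ℝ) ^ k) / (Fam X).card) atTop (𝓝 0)) ∧
  (Tendsto (fun X : ℕ => (((Fam X).filter (fun D => aRk a b D = 1)).card : ℝ) / (Fam X).card)
      atTop (𝓝 (1 / 2)) ↔
    Tendsto (fun X : ℕ => (∑ D ∈ (Fam X).filter (fun D => Odd (aRk a b D)),
      (aRk a b D : ℝ) ^ k) / (Fam X).card) atTop (𝓝 (1 / 2))) ∧
  (DensForm a b ↔ MeanForm a b k)

/-- the conclusions for `y² = x³ + a x + b` -/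
def Concl (a b : ℤ) : Prop :=
  TailMom a b ∧ (DensForm a b → ∀ k : ℕ, 1 ≤ k → MeanForm a b k) ∧
    (OddHalf a b → ∀ k : ℕ, 1 ≤ k → Equivs a b k)

/-! ### the equivalences from the moments -/

theorem fam_pos {X : ℕ} (hX : 3 ≤ X) : 0 < (Fam X).card := by
  obtain ⟨c, hc, h⟩ := P004.pfCount
  have h1 := h X hX
  have h2 : (3 : ℝ) ≤ X := by exact_mod_cast hX
  have h3 : (0 : ℝ) < ((Fam X).card : ℝ) := lt_of_lt_of_le (by positivity) h1
  exact_mod_cast h3

theorem equivs_of {a b : ℤ} (hM : TailMom a b) (hodd : OddHalf a b) {k : ℕ} (hk : 1 ≤ k) :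
    Equivs a b k := by
  classical
  have e1 : ∀ P : ℤ → Prop, P004.H628.frac P =
      fun X : ℕ => (((Fam X).filter P).card : ℝ) / (Fam X).card := by
    intro P
    funext X
    unfold P004.H628.frac
    congr!
  have e2 : ∀ (f : ℤ → ℝ) (P : ℤ → Prop), P004.H628.avg f P =
      fun X : ℕ => (∑ D ∈ (Fam X).filter P, f D) / (Fam X).card := by
    intro f P
    funext X
    unfold P004.H628.avg
    congr!
  have hodd' : Tendsto (P004.H628.frac (fun D => Odd (aRk a b D))) atTop (𝓝 (1 / 2)) := by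
    rw [e1]
    unfold OddHalf at hodd
    convert hodd
  obtain ⟨h0, h1, h2⟩ := P004.H628.equivs (a := aRk a b) hM.2.2 (fun X hX => fam_pos hX) hodd' hk
  rw [e1, e2] at h0
  rw [e1, e2] at h1
  rw [e1, e1] at h2
  refine ⟨?_, ?_, ?_⟩
  · convert h0
  · convert h1
  · unfold MeanForm DensForm
    rw [← h2]
    constructor
    · intro h
      exact ⟨by convert h 0 (by norm_num), by convert h 1 le_rfl⟩
    · rintro ⟨ha, hb⟩ j hj
      rcases (by omega : j = 0 ∨ j = 1) with rfl | rfl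
      · convert ha
      · convert hb

theorem odd_of_dens {a b : ℤ} (h : DensForm a b) : OddHalf a b := by
  classical
  have h0 := h 0 (by norm_num)
  have h1 := h 1 le_rfl
  unfold OddHalf
  have hup : ∀ X : ℕ, 3 ≤ X →
      (((Fam X).filter (fun D => Odd (aRk a b D))).card : ℝ) / (Fam X).card ≤
        1 - (((Fam X).filter (fun D => aRk a b D = 0)).card : ℝ) / (Fam X).card := by
    intro X hX
    have hN : (0 : ℝ) < ((Fam X).card : ℝ) := by exact_mod_cast fam_pos hX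
    rw [le_sub_iff_add_le, ← add_div, div_le_one hN]
    have hd : Disjoint ((Fam X).filter (fun D => Odd (aRk a b D)))
        ((Fam X).filter (fun D => aRk a b D = 0)) := by
      rw [Finset.disjoint_filter]
      intro D _ h2 h3
      rw [h3] at h2
      exact absurd h2 (by decide)
    have h4 := Finset.card_le_card (Finset.union_subset
      (Finset.filter_subset (fun D => Odd (aRk a b D)) (Fam X))
      (Finset.filter_subset (fun D => aRk a b D = 0) (Fam X)))
    rw [Finset.card_union_of_disjoint hd] at h4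
    exact_mod_cast h4
  have hlo : ∀ X : ℕ, (((Fam X).filter (fun D => aRk a b D = 1)).card : ℝ) / (Fam X).card ≤
      (((Fam X).filter (fun D => Odd (aRk a b D))).card : ℝ) / (Fam X).card := by
    intro X
    refine div_le_div_of_nonneg_right ?_ (Nat.cast_nonneg _)
    have h4 : (Fam X).filter (fun D => aRk a b D = 1) ⊆
        (Fam X).filter (fun D => Odd (aRk a b D)) := by
      intro D hD
      rw [Finset.mem_filter] at hD ⊢
      exact ⟨hD.1, by rw [hD.2]; exact odd_one⟩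
    exact_mod_cast Finset.card_le_card h4
  have h2 := (tendsto_const_nhds (x := (1 : ℝ)) (f := atTop)).sub h0
  have e : (1 : ℝ) - 1 / 2 = 1 / 2 := by norm_num
  rw [e] at h2
  refine tendsto_of_tendsto_of_tendsto_of_le_of_le' h1 h2 ?_ ?_
  · filter_upwards with X using hlo X
  · filter_upwards [eventually_ge_atTop 3] with X hX using hup X hX

theorem concl_of {a b : ℤ} (hM : TailMom a b) : Concl a b :=
  ⟨hM, fun h _ hk => (equivs_of hM (odd_of_dens h) hk).2.2.1 h, fun h _ hk => equivs_of hM h hk⟩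

/-! ### squarefree integers and fundamental discriminants -/

/-- the fundamental discriminant of the squarefree integer `m` -/
def Dm (m : ℤ) : ℤ := if m % 4 = 1 then m else 4 * m

theorem fund1_Dm {m : ℤ} (hm : Squarefree m) : Fund1 (Dm m) := by
  unfold Dm
  split_ifs with h
  · by_cases h1 : m = 1
    · exact Or.inl h1
    · exact Or.inr ⟨h1, Or.inl ⟨h, hm⟩⟩
  · have h4 : ¬ (4 : ℤ) ∣ m := by
      intro h4
      have h5 := hm 2 (by norm_num; exact h4)
      rw [Int.isUnit_iff] at h5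
      omega
    refine Or.inr ⟨by omega, Or.inr ⟨m, rfl, by omega, hm⟩⟩

theorem isFund_Dm {m : ℤ} (hm : Squarefree m) (h1 : m ≠ 1) : IsFund (Dm m) := by
  rcases fund1_Dm hm with h | h
  · exfalso
    unfold Dm at h
    split_ifs at h
    · exact h1 h
    · omega
  · exact h

theorem Dm_inj {m m' : ℤ} (hm : Squarefree m) (hm' : Squarefree m') (h : Dm m = Dm m') :
    m = m' := by
  unfold Dm at h
  split_ifs at h <;> omega

theorem abs_Dm (m : ℤ) : |(m : ℝ)| ≤ |(Dm m : ℝ)| ∧ |(Dm m : ℝ)| ≤ 4 * |(m : ℝ)| := by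
  have h := abs_nonneg (m : ℝ)
  unfold Dm
  split_ifs
  · constructor <;> linarith
  · push_cast
    rw [abs_mul, abs_of_pos (by norm_num : (0 : ℝ) < 4)]
    constructor <;> linarith

theorem jacobi_Dm (m : ℤ) {n : ℕ} (hn : Odd n) : jacobiSym (Dm m) n = jacobiSym m n := by
  unfold Dm
  split_ifs
  · rfl
  · rw [jacobiSym.mul_left]
    have h2 : Int.gcd (2 : ℕ) n = 1 := by
      rw [Int.gcd_natCast_natCast, Nat.coprime_two_left.2 hn]
    have h4 : jacobiSym 4 n = 1 := by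
      rw [(by decide : (4 : ℤ) = (2 : ℕ) ^ 2), jacobiSym.sq_one' h2]
    rw [h4, one_mul]

variable [Crv]

theorem fam_subset (X : ℕ) : ∀ D ∈ Fam X, ∃ m ∈ sqZ X, m ≠ 1 ∧ Dm m = D := by
  classical
  intro D hD
  unfold P004.Fam at hD
  rw [Finset.mem_filter, Finset.mem_Icc] at hD
  obtain ⟨⟨h1, h2⟩, h3, h4 | ⟨d, rfl, hd, hs⟩⟩ := hD
  · refine ⟨D, mem_sqZ.2 ⟨by omega, h4.2⟩, h3, ?_⟩
    unfold Dm
    rw [if_pos h4.1]
  · refine ⟨d, mem_sqZ.2 ⟨by omega, hs⟩, by omega, ?_⟩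
    unfold Dm
    rw [if_neg (by omega)]

theorem fam_card_le (X : ℕ) (P : ℤ → Prop) [DecidablePred P]
    [DecidablePred fun m : ℤ => m ≠ 1 ∧ P (Dm m)] :
    ((Fam X).filter P).card ≤ ((sqZ X).filter (fun m => m ≠ 1 ∧ P (Dm m))).card := by
  classical
  have : (Fam X).filter P ⊆ ((sqZ X).filter (fun m => m ≠ 1 ∧ P (Dm m))).image Dm := by
    intro D hD
    rw [Finset.mem_filter] at hD
    obtain ⟨m, h1, h2, h3⟩ := fam_subset X D hD.1
    rw [Finset.mem_image]
    exact ⟨m, Finset.mem_filter.2 ⟨h1, h2, by rw [h3]; exact hD.2⟩, h3⟩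
  exact (Finset.card_le_card this).trans Finset.card_image_le

theorem fam_sum_le (X : ℕ) (f : ℤ → ℝ) (hf : ∀ D, 0 ≤ f D) :
    ∑ D ∈ Fam X, f D ≤ ∑ m ∈ (sqZ X).filter (fun m => m ≠ 1), f (Dm m) := by
  classical
  have h1 : Fam X ⊆ ((sqZ X).filter (fun m => m ≠ 1)).image Dm := by
    intro D hD
    obtain ⟨m, h1, h2, h3⟩ := fam_subset X D hD
    exact Finset.mem_image.2 ⟨m, Finset.mem_filter.2 ⟨h1, h2⟩, h3⟩
  refine (Finset.sum_le_sum_of_subset_of_nonneg h1 fun D _ _ => hf D).trans (le_of_eq ?_)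
  apply Finset.sum_image
  intro m hm m' hm' h
  exact Dm_inj (mem_sqZ.1 (Finset.mem_filter.1 (Finset.mem_coe.1 hm)).1).2
    (mem_sqZ.1 (Finset.mem_filter.1 (Finset.mem_coe.1 hm')).1).2 h

end P004G
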